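import Vale.Agent.P074.Semi

/-! The cell estimate. -/

open MeasureTheory Set
open scoped ENNReal NNReal RealInnerProductSpace

namespace Vale.Agent.P074

variable {d : ℕ}

lemma abs_setIntegral_le {α : Type*} [MeasurableSpace α] {ρ : Measure α} [IsFiniteMeasure ρ]
    (A : Set α) {f : α → ℝ} {B : ℝ} (h : ∀ᵐ x ∂ρ, |f x| ≤ B) :
    |∫ x in A, f x ∂ρ| ≤ B * ρ.real A := by
  have := norm_setIntegral_le_of_norm_le_const_ae (μ := ρ) (s := A) (f := f) (C := B)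
    (measure_lt_top _ _) (ae_restrict_of_ae h)
  simpa using this

lemma pl_additive {ρ : Measure (Euc d)} [IsProbabilityMeasure ρ] {K : Set (Euc d)}
    (hL : LogConc ρ K) (hK : ∀ᵐ x ∂ρ, x ∈ K) {A B C : Set (Euc d)} (mA : MeasurableSet A)
    (mB : MeasurableSet B) (mC : MeasurableSet C)
    (hmid : ∀ x ∈ A, ∀ z ∈ B, (1 / 2 : ℝ) • x + (1 / 2 : ℝ) • z ∈ C) {α β w : Euc d → ℝ}
    (mα : Measurable α) (mβ : Measurable β) (mw : Measurable w) {μ₀ η : ℝ} (hη : 2 * η ≤ μ₀)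
    (hα : ∀ x ∈ K, |α x - μ₀| ≤ η) (hβ : ∀ x ∈ K, |β x - μ₀| ≤ η) (hw0 : ∀ x ∈ K, 0 ≤ w x)
    (hKc : Convex ℝ K) (iw : Integrable w ρ)
    (H : ∀ x ∈ K, ∀ z ∈ K, α x + β z ≤ w ((1 / 2 : ℝ) • x + (1 / 2 : ℝ) • z))
    {s t : ℝ} (hs : 0 < s) (ht : 0 < t) (hsA : s ^ 2 = ρ.real A) (htB : t ^ 2 = ρ.real B)
    {a b : ℝ} (ha : ∫ x in A, α x ∂ρ = s ^ 2 * a) (hb : ∫ x in B, β x ∂ρ = t ^ 2 * b) :
    s * t * (a + b) ≤ ∫ x in C, w x ∂ρ := by
  have iα : Integrable α ρ := integrable_of_ae_bound mα (|μ₀| + η) (hK.mono fun x hx => by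
    have := abs_sub_abs_le_abs_sub (α x) μ₀; linarith [hα x hx])
  have iβ : Integrable β ρ := integrable_of_ae_bound mβ (|μ₀| + η) (hK.mono fun x hx => by
    have := abs_sub_abs_le_abs_sub (β x) μ₀; linarith [hβ x hx])
  have ba : |a - μ₀| ≤ η := by
    have h1 := abs_setIntegral_le A (hK.mono hα)
    rw [integral_sub iα.integrableOn (integrable_const _), ha] at h1
    simp only [integral_const, measureReal_restrict_apply_univ, smul_eq_mul, ← hsA] at h1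
    rw [← mul_sub, abs_mul, abs_of_pos (by positivity), mul_comm η] at h1
    exact le_of_mul_le_mul_left h1 (by positivity)
  have bb : |b - μ₀| ≤ η := by
    have h1 := abs_setIntegral_le B (hK.mono hβ)
    rw [integral_sub iβ.integrableOn (integrable_const _), hb] at h1
    simp only [integral_const, measureReal_restrict_apply_univ, smul_eq_mul, ← htB] at h1
    rw [← mul_sub, abs_mul, abs_of_pos (by positivity), mul_comm η] at h1
    exact le_of_mul_le_mul_left h1 (by positivity)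
  rw [abs_le] at ba bb
  have hη0 : 0 ≤ η := by linarith
  have f0 : ∀ x ∈ K, 0 ≤ 2 * α x + (b - a) := fun x hx => by
    have := abs_le.1 (hα x hx); linarith
  have g0 : ∀ x ∈ K, 0 ≤ 2 * β x - (b - a) := fun x hx => by
    have := abs_le.1 (hβ x hx); linarith
  have i1 : Integrable (fun x => 2 * α x + (b - a)) ρ := (iα.const_mul 2).add (integrable_const _)
  have i2 : Integrable (fun x => 2 * β x - (b - a)) ρ := (iβ.const_mul 2).sub (integrable_const _)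
  have PL := hL (1 / 2) (1 / 2) (by norm_num) (by norm_num) (by norm_num)
    (A.indicator fun x => 2 * α x + (b - a)) (B.indicator fun x => 2 * β x - (b - a))
    (C.indicator w) (Measurable.indicator (by fun_prop) mA) (Measurable.indicator (by fun_prop) mB)
    (mw.indicator mC) (i1.indicator mA) (i2.indicator mB) (iw.indicator mC)
    (fun x hx => indicator_apply_nonneg fun _ => f0 x hx)
    (fun x hx => indicator_apply_nonneg fun _ => g0 x hx)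
    (fun x hx => indicator_apply_nonneg fun _ => hw0 x hx)
    (Filter.Eventually.of_forall (by
      rintro _ x hx z hz rfl
      have hm : (1 / 2 : ℝ) • x + (1 / 2 : ℝ) • z ∈ K :=
        hKc hx hz (by norm_num) (by norm_num) (by norm_num)
      have h0 : 0 ≤ C.indicator w ((1 / 2 : ℝ) • x + (1 / 2 : ℝ) • z) :=
        indicator_apply_nonneg fun _ => hw0 _ hm
      by_cases hxA : x ∈ A
      swap
      · rw [indicator_of_notMem hxA, Real.zero_rpow (by norm_num), zero_mul]; exact h0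
      by_cases hzB : z ∈ B
      swap
      · rw [indicator_of_notMem hzB, Real.zero_rpow (by norm_num), mul_zero]; exact h0
      rw [indicator_of_mem hxA, indicator_of_mem hzB, indicator_of_mem (hmid x hxA z hzB)]
      refine (Real.geom_mean_le_arith_mean2_weighted (by norm_num) (by norm_num) (f0 x hx) (g0 z hz)
        (by norm_num)).trans ?_
      linarith [H x hx z hz]))
  rw [integral_indicator mA, integral_indicator mB, integral_indicator mC,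
    integral_add (iα.const_mul 2).integrableOn (integrable_const _),
    integral_sub (iβ.const_mul 2).integrableOn (integrable_const _), integral_const_mul,
    integral_const_mul, ha, hb] at PL
  simp only [integral_const, measureReal_restrict_apply_univ, smul_eq_mul, ← hsA, ← htB] at PL
  have hP : 0 ≤ a + b := by linarith
  have e1 : 2 * (s ^ 2 * a) + s ^ 2 * (b - a) = s ^ 2 * (a + b) := by ring
  have e2 : 2 * (t ^ 2 * b) - t ^ 2 * (b - a) = t ^ 2 * (a + b) := by ring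
  rw [e1, e2, ← Real.mul_rpow (by positivity) (by positivity),
    show s ^ 2 * (a + b) * (t ^ 2 * (a + b)) = (s * t * (a + b)) ^ 2 by ring,
    ← Real.sqrt_eq_rpow, Real.sqrt_sq (by positivity)] at PL
  exact PL

lemma cell_algebra {s t R l V qA qB θA θB W J J2 X τ : ℝ} (hs : 0 < s) (ht : 0 < t) (hR : 0 < R)
    (hl : 0 < l) (hV : 0 ≤ V) (hqA : 0 ≤ qA) (hθA : |θA| ≤ R * V) (hθB : |θB| ≤ R * V)
    (hX : |X| ≤ R * V * J) (hJ : |s ^ 2 - t ^ 2| ≤ J) (hJ2 : J ^ 2 ≤ t ^ 2 * J2)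
    (hts : t ^ 2 ≤ 2 * s ^ 2) (hτ : qA - qB = 8 * R ^ 2 * τ)
    (H : s * t * (6 * R ^ 2 - (qA + qB) / 2 + l * (θA - θB) / 2 + τ * (qA - qB) / 2
      - (l * V + 2 * R * |τ|) ^ 2 / 4) ≤ W) :
    l * (s ^ 2 * θA - t ^ 2 * θB - X) ≤ 2 * W - s ^ 2 * (6 * R ^ 2 - qA) - t ^ 2 * (6 * R ^ 2 - qB)
      + 4 * l ^ 2 * s ^ 2 * V ^ 2 + 13 * R ^ 2 * J2 := by
  have hst : 0 < s * t := mul_pos hs ht
  have hJ0 : 0 ≤ J := (abs_nonneg _).trans hJ
  have h15 : t ≤ 3 / 2 * s := by nlinarith only [hts, hs, ht]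
  have h1 : (l * V + 2 * R * |τ|) ^ 2 ≤ 2 * l ^ 2 * V ^ 2 + 8 * R ^ 2 * τ ^ 2 := by
    have := sq_abs τ
    nlinarith only [sq_nonneg (l * V - 2 * R * |τ|), this]
  have h1' : s * t * (12 * R ^ 2 - (qA + qB) + l * (θA - θB) + 4 * R ^ 2 * τ ^ 2
      - l ^ 2 * V ^ 2) ≤ 2 * W := by
    have : s * t * (l * V + 2 * R * |τ|) ^ 2 ≤ s * t * (2 * l ^ 2 * V ^ 2 + 8 * R ^ 2 * τ ^ 2) :=
      mul_le_mul_of_nonneg_left h1 hst.le
    rw [hτ] at H
    linarith only [H, this]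
  have h2 : -(8 * τ * t * (s - t)) ≤ 4 * τ ^ 2 * (s * t) + 6 * (s - t) ^ 2 := by
    have : τ ^ 2 * t * t ≤ τ ^ 2 * t * (3 / 2 * s) :=
      mul_le_mul_of_nonneg_left h15 (by positivity)
    linarith only [sq_nonneg (τ * t + 3 / 2 * (s - t)), this]
  have h2' : s ^ 2 * (6 * R ^ 2 - qA) + t ^ 2 * (6 * R ^ 2 - qB) - s * t * (12 * R ^ 2 - (qA + qB))
      ≤ 12 * R ^ 2 * (s - t) ^ 2 + 4 * R ^ 2 * τ ^ 2 * (s * t) := by
    have e : qB = qA - 8 * R ^ 2 * τ := by linarith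
    have h3 := mul_le_mul_of_nonneg_left h2 (sq_nonneg R)
    have h4 : 0 ≤ (s - t) ^ 2 * qA := by positivity
    rw [e]
    linarith only [h3, h4]
  have h4 : (s - t) ^ 2 ≤ J2 := by
    have h5 : (s ^ 2 - t ^ 2) ^ 2 ≤ J ^ 2 := sq_le_sq' (abs_le.1 hJ).1 (abs_le.1 hJ).2
    have h6 : t ^ 2 * (s - t) ^ 2 ≤ (s + t) ^ 2 * (s - t) ^ 2 :=
      mul_le_mul_of_nonneg_right (by linarith only [hst, sq_nonneg s]) (sq_nonneg _)
    have : t ^ 2 * (s - t) ^ 2 ≤ t ^ 2 * J2 := by linarith only [h5, h6, hJ2]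
    exact le_of_mul_le_mul_left this (by positivity)
  have h5 : s ^ 2 * θA - t ^ 2 * θB - s * t * (θA - θB) ≤ R * V * J := by
    have e : s ^ 2 * θA - t ^ 2 * θB - s * t * (θA - θB) = (s - t) * (s * θA + t * θB) := by ring
    have h6 : |s * θA + t * θB| ≤ (s + t) * (R * V) := by
      refine (abs_add_le _ _).trans ?_
      rw [abs_mul, abs_mul, abs_of_pos hs, abs_of_pos ht]
      linarith only [mul_le_mul_of_nonneg_left hθA hs.le, mul_le_mul_of_nonneg_left hθB ht.le]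
    have h7 : |s - t| * (s + t) ≤ J := by
      rwa [show s ^ 2 - t ^ 2 = (s - t) * (s + t) by ring, abs_mul,
        abs_of_pos (add_pos hs ht)] at hJ
    rw [e]
    calc _ ≤ |(s - t) * (s * θA + t * θB)| := le_abs_self _
      _ = |s - t| * |s * θA + t * θB| := abs_mul _ _
      _ ≤ |s - t| * ((s + t) * (R * V)) := by gcongr
      _ = R * V * (|s - t| * (s + t)) := by ring
      _ ≤ R * V * J := by gcongr
  have h6 : 2 * l * R * V * J ≤ l ^ 2 * t ^ 2 * V ^ 2 + R ^ 2 * J2 := by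
    have h7 := mul_le_mul_of_nonneg_left hJ2 (sq_nonneg R)
    have : t ^ 2 * (2 * l * R * V * J) ≤ t ^ 2 * (l ^ 2 * t ^ 2 * V ^ 2 + R ^ 2 * J2) := by
      linarith only [sq_nonneg (l * t ^ 2 * V - R * J), h7]
    exact le_of_mul_le_mul_left this (by positivity)
  have h7 : l * (s ^ 2 * θA - t ^ 2 * θB - X) ≤ l * (s * t * (θA - θB) + 2 * (R * V * J)) := by
    apply mul_le_mul_of_nonneg_left _ hl.le
    linarith [(abs_le.1 hX).1]
  have h8 : l ^ 2 * V ^ 2 * (s * t) ≤ l ^ 2 * V ^ 2 * (2 * s ^ 2) :=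
    mul_le_mul_of_nonneg_left (by nlinarith only [h15, hs]) (by positivity)
  have h9 : l ^ 2 * V ^ 2 * t ^ 2 ≤ l ^ 2 * V ^ 2 * (2 * s ^ 2) :=
    mul_le_mul_of_nonneg_left hts (by positivity)
  have h10 := mul_le_mul_of_nonneg_left h4 (show 0 ≤ 12 * R ^ 2 by positivity)
  linarith only [h1', h2', h6, h7, h8, h9, h10]

lemma cell_est {ρ : Measure (Euc d)} [IsProbabilityMeasure ρ] {K : Set (Euc d)}
    (hL : LogConc ρ K) (hK : ∀ᵐ x ∂ρ, x ∈ K) (hKc : Convex ℝ K) {R : ℝ} (hR : 0 < R)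
    (hKR : ∀ x ∈ K, ‖x‖ ≤ R) {A B C : Set (Euc d)} (mA : MeasurableSet A)
    (mB : MeasurableSet B) (mC : MeasurableSet C)
    (hmid : ∀ x ∈ A, ∀ z ∈ B, (1 / 2 : ℝ) • x + (1 / 2 : ℝ) • z ∈ C) (v : Euc d) {l : ℝ}
    (hl : 0 < l) (hlv : l * ‖v‖ ≤ R) {j : Euc d → ℝ} (mj : Measurable j)
    (bj : ∀ᵐ x ∂ρ, |j x| ≤ 1 / 2) (hA : 0 < ρ.real A)
    (hAB : ∫ x in B, (1 + j x) ∂ρ = ρ.real A) :
    l * (∫ x in A, ⟪x, v⟫ ∂ρ - ∫ x in B, (1 + j x) * ⟪x, v⟫ ∂ρ) ≤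
      2 * ∫ x in C, (6 * R ^ 2 - ‖x‖ ^ 2) ∂ρ - ∫ x in A, (6 * R ^ 2 - ‖x‖ ^ 2) ∂ρ
        - ∫ x in B, (6 * R ^ 2 - ‖x‖ ^ 2) ∂ρ
      + 4 * l ^ 2 * (ρ.real A * ‖v‖ ^ 2) + 13 * R ^ 2 * ∫ x in B, j x ^ 2 ∂ρ := by
  have hρR : ∀ᵐ x ∂ρ, ‖x‖ ≤ R := hK.mono hKR
  have ij : Integrable j ρ := integrable_of_ae_bound mj _ bj
  have ij2 : Integrable (fun x => j x ^ 2) ρ := integrable_of_ae_bound (by fun_prop) ((1 / 2) ^ 2)
    (bj.mono fun x hx => by rw [abs_pow]; gcongr)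
  have iq : Integrable (fun x : Euc d => ‖x‖ ^ 2) ρ := integrable_of_continuous hρR (by fun_prop)
  have iθ : Integrable (fun x : Euc d => ⟪x, v⟫) ρ := integrable_of_continuous hρR (by fun_prop)
  have bθ : ∀ x ∈ K, |⟪x, v⟫| ≤ R * ‖v‖ := fun x hx =>
    (abs_real_inner_le_norm x v).trans (mul_le_mul_of_nonneg_right (hKR x hx) (norm_nonneg _))
  have ijθ : Integrable (fun x : Euc d => j x * ⟪x, v⟫) ρ :=
    integrable_of_ae_bound (by fun_prop) (1 / 2 * (R * ‖v‖)) (by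
      filter_upwards [hK, bj] with x hx h1
      rw [abs_mul]; exact mul_le_mul h1 (bθ x hx) (abs_nonneg _) (by norm_num))
  set J := ∫ x in B, |j x| ∂ρ with hJdef
  set J2 := ∫ x in B, j x ^ 2 ∂ρ with hJ2def
  rw [integral_add (integrable_const _) ij.integrableOn] at hAB
  simp only [integral_const, measureReal_restrict_apply_univ, smul_eq_mul, mul_one] at hAB
  have hJ1 : |∫ x in B, j x ∂ρ| ≤ J := abs_integral_le_integral_abs
  have hJh : J ≤ 1 / 2 * ρ.real B :=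
    (le_abs_self _).trans (abs_setIntegral_le B (bj.mono fun x hx => by rwa [abs_abs]))
  have hB : 0 < ρ.real B := by linarith [(abs_le.1 hJ1).2]
  set s := √(ρ.real A) with hsdef
  set t := √(ρ.real B) with htdef
  have hs : 0 < s := Real.sqrt_pos.2 hA
  have ht : 0 < t := Real.sqrt_pos.2 hB
  have hsA : s ^ 2 = ρ.real A := Real.sq_sqrt hA.le
  have htB : t ^ 2 = ρ.real B := Real.sq_sqrt hB.le
  have hJ : |s ^ 2 - t ^ 2| ≤ J := by
    rw [hsA, htB, ← hAB, add_sub_cancel_left]; exact hJ1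
  have hts : t ^ 2 ≤ 2 * s ^ 2 := by rw [hsA, htB]; linarith [(abs_le.1 hJ1).1]
  have hJ2 : J ^ 2 ≤ t ^ 2 * J2 := by
    have h0 : 0 ≤ ∫ x in B, (t ^ 2 * |j x| - J) ^ 2 ∂ρ := integral_nonneg fun x => sq_nonneg _
    have e : ∀ x, (t ^ 2 * |j x| - J) ^ 2 = t ^ 4 * j x ^ 2 - 2 * t ^ 2 * J * |j x| + J ^ 2 :=
      fun x => by rw [← sq_abs (j x)]; ring
    have i1 : Integrable (fun x => t ^ 4 * j x ^ 2 - 2 * t ^ 2 * J * |j x|) ρ :=
      (ij2.const_mul _).sub (ij.abs.const_mul _)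
    simp only [e] at h0
    rw [integral_add i1.integrableOn (integrable_const _),
      integral_sub (ij2.const_mul _).integrableOn (ij.abs.const_mul _).integrableOn,
      integral_const_mul, integral_const_mul] at h0
    simp only [integral_const, measureReal_restrict_apply_univ, smul_eq_mul, ← htB] at h0
    have : t ^ 2 * J ^ 2 ≤ t ^ 2 * (t ^ 2 * J2) := by linarith only [h0]
    exact le_of_mul_le_mul_left this (by positivity)
  obtain ⟨qA, hqA⟩ : ∃ qA, ∫ x in A, ‖x‖ ^ 2 ∂ρ = s ^ 2 * qA :=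
    ⟨(∫ x in A, ‖x‖ ^ 2 ∂ρ) / s ^ 2, by field_simp⟩
  obtain ⟨qB, hqB⟩ : ∃ qB, ∫ x in B, ‖x‖ ^ 2 ∂ρ = t ^ 2 * qB :=
    ⟨(∫ x in B, ‖x‖ ^ 2 ∂ρ) / t ^ 2, by field_simp⟩
  obtain ⟨θA, hθA⟩ : ∃ θA, ∫ x in A, ⟪x, v⟫ ∂ρ = s ^ 2 * θA :=
    ⟨(∫ x in A, ⟪x, v⟫ ∂ρ) / s ^ 2, by field_simp⟩
  obtain ⟨θB, hθB⟩ : ∃ θB, ∫ x in B, ⟪x, v⟫ ∂ρ = t ^ 2 * θB :=
    ⟨(∫ x in B, ⟪x, v⟫ ∂ρ) / t ^ 2, by field_simp⟩
  have bq : ∀ᵐ x ∂ρ, |‖x‖ ^ 2| ≤ R ^ 2 := hρR.mono fun x hx => by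
    rw [abs_of_nonneg (sq_nonneg _)]; gcongr
  have cancel : ∀ {u a b : ℝ}, 0 < u → |u ^ 2 * a| ≤ b * u ^ 2 → |a| ≤ b := fun {u a b} hu h => by
    rw [abs_mul, abs_of_pos (by positivity), mul_comm b] at h
    exact le_of_mul_le_mul_left h (by positivity)
  have qA0 : 0 ≤ qA := by
    have : 0 ≤ s ^ 2 * qA := hqA ▸ integral_nonneg fun x => sq_nonneg _
    exact nonneg_of_mul_nonneg_right this (by positivity)
  have qB0 : 0 ≤ qB := by
    have : 0 ≤ t ^ 2 * qB := hqB ▸ integral_nonneg fun x => sq_nonneg _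
    exact nonneg_of_mul_nonneg_right this (by positivity)
  have qA1 : |qA| ≤ R ^ 2 := cancel hs (by rw [← hqA, hsA]; exact abs_setIntegral_le A bq)
  have qB1 : |qB| ≤ R ^ 2 := cancel ht (by rw [← hqB, htB]; exact abs_setIntegral_le B bq)
  have θA1 : |θA| ≤ R * ‖v‖ :=
    cancel hs (by rw [← hθA, hsA]; exact abs_setIntegral_le A (hK.mono bθ))
  have θB1 : |θB| ≤ R * ‖v‖ :=
    cancel ht (by rw [← hθB, htB]; exact abs_setIntegral_le B (hK.mono bθ))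
  have hX : |∫ x in B, j x * ⟪x, v⟫ ∂ρ| ≤ R * ‖v‖ * J := by
    refine abs_integral_le_integral_abs.trans ?_
    rw [hJdef, ← integral_const_mul]
    refine integral_mono_ae ijθ.abs.integrableOn (ij.abs.const_mul _).integrableOn ?_
    filter_upwards [ae_restrict_of_ae hK] with x hx
    rw [abs_mul, mul_comm]
    exact mul_le_mul_of_nonneg_right (bθ x hx) (abs_nonneg _)
  set τ := (qA - qB) / (8 * R ^ 2) with hτdef
  have hτ : qA - qB = 8 * R ^ 2 * τ := by rw [hτdef]; field_simp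
  have τ1 : |τ| ≤ 1 / 8 := by
    rw [hτdef, abs_div, abs_of_pos (show 0 < 8 * R ^ 2 by positivity),
      div_le_iff₀ (by positivity), abs_le]
    constructor <;> linarith [le_abs_self qA, le_abs_self qB]
  set N := l * ‖v‖ + 2 * R * |τ| with hN
  have N0 : 0 ≤ N := by positivity
  have N1 : N ≤ 5 / 4 * R := by
    linarith only [hN, hlv, mul_le_mul_of_nonneg_left τ1 hR.le]
  have N2 : N ^ 2 ≤ 25 / 16 * R ^ 2 := by nlinarith only [N0, N1]
  have pt : ∀ x ∈ K, 0 ≤ ‖x‖ ^ 2 ∧ ‖x‖ ^ 2 ≤ R ^ 2 ∧ |l * ⟪x, v⟫ + τ * ‖x‖ ^ 2| ≤ 9 / 8 * R ^ 2 := by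
    intro x hx
    have h1 : ‖x‖ ^ 2 ≤ R ^ 2 := by gcongr; exact hKR x hx
    refine ⟨sq_nonneg _, h1, (abs_add_le _ _).trans ?_⟩
    rw [abs_mul, abs_mul, abs_of_pos hl, abs_of_nonneg (sq_nonneg ‖x‖)]
    have h2 : l * |⟪x, v⟫| ≤ l * (R * ‖v‖) := mul_le_mul_of_nonneg_left (bθ x hx) hl.le
    have h3 : |τ| * ‖x‖ ^ 2 ≤ 1 / 8 * R ^ 2 := mul_le_mul τ1 h1 (sq_nonneg _) (by norm_num)
    linarith only [h2, h3, mul_le_mul_of_nonneg_left hlv hR.le]
  have iw : Integrable (fun x : Euc d => 6 * R ^ 2 - ‖x‖ ^ 2) ρ := (integrable_const _).sub iq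
  have H := pl_additive hL hK mA mB mC hmid
    (α := fun x => (6 * R ^ 2 - ‖x‖ ^ 2) / 2 + (l * ⟪x, v⟫ + τ * ‖x‖ ^ 2) / 2 - N ^ 2 / 8)
    (β := fun x => (6 * R ^ 2 - ‖x‖ ^ 2) / 2 - (l * ⟪x, v⟫ + τ * ‖x‖ ^ 2) / 2 - N ^ 2 / 8)
    (w := fun x => 6 * R ^ 2 - ‖x‖ ^ 2) (by fun_prop) (by fun_prop) (by fun_prop)
    (μ₀ := 3 * R ^ 2) (η := 3 / 2 * R ^ 2) (by linarith only)
    (fun x hx => by
      obtain ⟨h1, h2, h3⟩ := pt x hx
      rw [abs_le] at h3 ⊢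
      constructor <;> linarith only [sq_nonneg N, N2, h1, h2, h3.1, h3.2, sq_nonneg R])
    (fun x hx => by
      obtain ⟨h1, h2, h3⟩ := pt x hx
      rw [abs_le] at h3 ⊢
      constructor <;> linarith only [sq_nonneg N, N2, h1, h2, h3.1, h3.2, sq_nonneg R])
    (fun x hx => by linarith only [(pt x hx).2.1, sq_nonneg R]) hKc iw
    (fun x hx z hz => by
      have e1 : ‖(1 / 2 : ℝ) • x + (1 / 2 : ℝ) • z‖ ^ 2 =
          (‖x‖ ^ 2 + ‖z‖ ^ 2) / 2 - ‖x - z‖ ^ 2 / 4 := by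
        rw [← smul_add, norm_smul, mul_pow, norm_add_sq_real, norm_sub_sq_real]
        norm_num; ring
      have h1 : ⟪x, v⟫ - ⟪z, v⟫ ≤ ‖x - z‖ * ‖v‖ := by
        rw [← inner_sub_left]; exact real_inner_le_norm _ _
      have h2 : |‖x‖ ^ 2 - ‖z‖ ^ 2| ≤ 2 * R * ‖x - z‖ := by
        rw [show ‖x‖ ^ 2 - ‖z‖ ^ 2 = (‖x‖ + ‖z‖) * (‖x‖ - ‖z‖) by ring, abs_mul,
          abs_of_nonneg (by positivity)]
        exact mul_le_mul (by linarith [hKR x hx, hKR z hz]) (abs_norm_sub_norm_le x z)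
          (abs_nonneg _) (by positivity)
      have h3 : τ * (‖x‖ ^ 2 - ‖z‖ ^ 2) ≤ |τ| * (2 * R * ‖x - z‖) :=
        (le_abs_self _).trans (by rw [abs_mul]; gcongr)
      have h4 := mul_le_mul_of_nonneg_left h1 hl.le
      have h5 : l * (⟪x, v⟫ - ⟪z, v⟫) + τ * (‖x‖ ^ 2 - ‖z‖ ^ 2) ≤ N * ‖x - z‖ := by
        rw [hN]; linarith only [h3, h4]
      simp only [e1]
      linarith only [sq_nonneg (‖x - z‖ - N), h5])
    hs ht hsA htB
    (a := (6 * R ^ 2 - qA) / 2 + (l * θA + τ * qA) / 2 - N ^ 2 / 8)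
    (b := (6 * R ^ 2 - qB) / 2 - (l * θB + τ * qB) / 2 - N ^ 2 / 8)
    (by
      have e : ∀ x : Euc d, (6 * R ^ 2 - ‖x‖ ^ 2) / 2 + (l * ⟪x, v⟫ + τ * ‖x‖ ^ 2) / 2 - N ^ 2 / 8
          = (3 * R ^ 2 - N ^ 2 / 8) + ((τ - 1) / 2 * ‖x‖ ^ 2 + l / 2 * ⟪x, v⟫) := fun x => by ring
      have i1 : Integrable (fun x : Euc d => (τ - 1) / 2 * ‖x‖ ^ 2 + l / 2 * ⟪x, v⟫) ρ :=
        (iq.const_mul _).add (iθ.const_mul _)
      simp only [e]
      rw [integral_add (integrable_const _) i1.integrableOn,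
        integral_add (iq.const_mul _).integrableOn (iθ.const_mul _).integrableOn,
        integral_const_mul, integral_const_mul, hqA, hθA]
      simp only [integral_const, measureReal_restrict_apply_univ, smul_eq_mul, ← hsA]
      ring)
    (by
      have e : ∀ x : Euc d, (6 * R ^ 2 - ‖x‖ ^ 2) / 2 - (l * ⟪x, v⟫ + τ * ‖x‖ ^ 2) / 2 - N ^ 2 / 8
          = (3 * R ^ 2 - N ^ 2 / 8) + ((-τ - 1) / 2 * ‖x‖ ^ 2 + -l / 2 * ⟪x, v⟫) := fun x => by ring
      have i1 : Integrable (fun x : Euc d => (-τ - 1) / 2 * ‖x‖ ^ 2 + -l / 2 * ⟪x, v⟫) ρ :=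
        (iq.const_mul _).add (iθ.const_mul _)
      simp only [e]
      rw [integral_add (integrable_const _) i1.integrableOn,
        integral_add (iq.const_mul _).integrableOn (iθ.const_mul _).integrableOn,
        integral_const_mul, integral_const_mul, hqB, hθB]
      simp only [integral_const, measureReal_restrict_apply_univ, smul_eq_mul, ← htB]
      ring)
  have fin := cell_algebra (W := ∫ x in C, (6 * R ^ 2 - ‖x‖ ^ 2) ∂ρ) hs ht hR hl (norm_nonneg v)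
    qA0 θA1 θB1 hX hJ hJ2 hts hτ (by
      refine le_trans (le_of_eq ?_) H
      rw [hN]; ring)
  have eB : ∫ x in B, (1 + j x) * ⟪x, v⟫ ∂ρ = t ^ 2 * θB + ∫ x in B, j x * ⟪x, v⟫ ∂ρ := by
    simp only [add_mul, one_mul]
    rw [integral_add iθ.integrableOn ijθ.integrableOn, hθB]
  have eA1 : ∫ x in A, (6 * R ^ 2 - ‖x‖ ^ 2) ∂ρ = s ^ 2 * (6 * R ^ 2 - qA) := by
    rw [integral_sub (integrable_const _) iq.integrableOn, hqA]
    simp only [integral_const, measureReal_restrict_apply_univ, smul_eq_mul, ← hsA]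
    ring
  have eB1 : ∫ x in B, (6 * R ^ 2 - ‖x‖ ^ 2) ∂ρ = t ^ 2 * (6 * R ^ 2 - qB) := by
    rw [integral_sub (integrable_const _) iq.integrableOn, hqB]
    simp only [integral_const, measureReal_restrict_apply_univ, smul_eq_mul, ← htB]
    ring
  rw [eB, eA1, eB1, hθA, ← hsA]
  linarith only [fin]

end Vale.Agent.P074
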