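import Mathlib

open MeasureTheory
open scoped ENNReal NNReal

namespace Vale.Agent.P074

/-- Euclidean space `R^d`. -/
abbrev Euc (d : ℕ) : Type := EuclideanSpace ℝ (Fin d)

/-- The uniform probability measure `|K|⁻¹ 1_K dx`. -/
noncomputable def unif {d : ℕ} (K : Set (Euc d)) : Measure (Euc d) :=
  (volume K)⁻¹ • volume.restrict K

/-- The quadratic cost `∫ |x - T x|² dρ`. -/
noncomputable def cost {d : ℕ} (ρ : Measure (Euc d)) (T : Euc d → Euc d) : ℝ≥0∞ :=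
  ∫⁻ x, ‖x - T x‖ₑ ^ 2 ∂ρ

/-- `T` is a quadratic optimal transport map from `ρ` to `μ`: a Borel map pushing `ρ` to `μ`
that minimizes the cost among all Borel maps pushing `ρ` to `μ`. -/
def IsOptimalMap {d : ℕ} (ρ μ : Measure (Euc d)) (T : Euc d → Euc d) : Prop :=
  Measurable T ∧ ρ.map T = μ ∧
    ∀ S : Euc d → Euc d, Measurable S → ρ.map S = μ → cost ρ T ≤ cost ρ S

/-- The couplings of `μ` and `ν`. -/
def couplings {d : ℕ} (μ ν : Measure (Euc d)) : Set (Measure (Euc d × Euc d)) :=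
  {π | π.map Prod.fst = μ ∧ π.map Prod.snd = ν}

/-- The Wasserstein distance `W₂(μ, ν)`. -/
noncomputable def W2 {d : ℕ} (μ ν : Measure (Euc d)) : ℝ≥0∞ :=
  ⨅ π ∈ couplings μ ν, (∫⁻ p, ‖p.1 - p.2‖ₑ ^ 2 ∂π) ^ (1 / 2 : ℝ)

/-- The norm `‖T - S‖` in `L²(ρ)`. -/
noncomputable def distL2 {d : ℕ} (ρ : Measure (Euc d)) (T S : Euc d → Euc d) : ℝ≥0∞ :=
  (∫⁻ x, ‖T x - S x‖ₑ ^ 2 ∂ρ) ^ (1 / 2 : ℝ)

/-- The exponent `α` is admissible in dimension `d`. -/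
def Admissible (d : ℕ) (α : ℝ) : Prop :=
  ∀ K : Set (Euc d), IsCompact K → Convex ℝ K → (interior K).Nonempty →
    ∀ Y : Set (Euc d), IsCompact Y → Y.Nonempty →
      ∃ C : ℝ≥0, ∀ μ ν : Measure (Euc d),
        IsProbabilityMeasure μ → IsProbabilityMeasure ν → μ Yᶜ = 0 → ν Yᶜ = 0 →
          ∀ T S : Euc d → Euc d, IsOptimalMap (unif K) μ T → IsOptimalMap (unif K) ν S →
            distL2 (unif K) T S ≤ C * W2 μ ν ^ α

end Vale.Agent.P074
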