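import Vale.Agent.P074.Var

/-! Discretization of couplings. -/

open MeasureTheory Set
open scoped ENNReal NNReal RealInnerProductSpace

namespace Vale.Agent.P074

variable {d : ℕ}

lemma exists_net {Y : Set (Euc d)} (hY : IsCompact Y) (hn : Y.Nonempty) {δ : ℝ} (hδ : 0 < δ) :
    ∃ q : Euc d → Euc d, Measurable q ∧ (range q).Finite ∧ (∀ y, q y ∈ Y) ∧
      ∀ y ∈ Y, ‖q y - y‖ ≤ δ := by
  obtain ⟨t, htY, htf, hcov⟩ := finite_cover_balls_of_compact hY hδ
  obtain ⟨y₀, hy₀⟩ := hn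
  let l := htf.toFinset.toList
  let e : ℕ → Euc d := fun n => l.getD n y₀
  have he : ∀ n, e n ∈ Y := fun n => by
    by_cases h : n < l.length
    · have : l[n] ∈ l := List.getElem_mem h
      simp only [e, List.getD_eq_getElem _ _ h]
      exact htY (htf.mem_toFinset.1 (Finset.mem_toList.1 this))
    · simp only [e, List.getD_eq_default _ _ (not_lt.1 h)]; exact hy₀
  refine ⟨SimpleFunc.nearestPt e l.length, (SimpleFunc.nearestPt e l.length).measurable,
    SimpleFunc.finite_range _, fun y => he _, fun y hy => ?_⟩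
  obtain ⟨x, hx, hxy⟩ := mem_iUnion₂.1 (hcov hy)
  obtain ⟨k, hk, rfl⟩ := List.getElem_of_mem (show x ∈ l by simpa [l] using hx)
  have h1 := SimpleFunc.edist_nearestPt_le e y hk.le
  rw [edist_dist, edist_dist, ENNReal.ofReal_le_ofReal_iff dist_nonneg] at h1
  rw [← dist_eq_norm]
  refine h1.trans ?_
  simp only [e, List.getD_eq_getElem _ _ hk]
  rw [dist_comm]
  exact (Metric.mem_ball.1 hxy).le

lemma exists_sum_rep {α β : Type} [MeasurableSpace α] [MeasurableSpace β]
    [MeasurableSingletonClass β] (γ : Measure α) [IsProbabilityMeasure γ] {Q : α → β}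
    (mQ : Measurable Q) (hQ : (range Q).Finite) :
    ∃ (ι : Type) (_ : Fintype ι) (_ : Nonempty ι) (m : ι → ℝ) (z : ι → β),
      (∀ i, 0 < m i) ∧ ∑ i, m i = 1 ∧ Function.Injective z ∧ (∀ i, z i ∈ range Q) ∧
      ∀ f : β → ℝ, Measurable f → ∑ i, m i * f (z i) = ∫ p, f (Q p) ∂γ := by
  classical
  have := Measure.isProbabilityMeasure_map (μ := γ) mQ.aemeasurable
  let S := hQ.toFinset.filter fun b => 0 < (γ.map Q).real {b}
  have key : ∀ f : β → ℝ, Measurable f →
      ∑ i : S, (γ.map Q).real {i.1} * f i.1 = ∫ p, f (Q p) ∂γ := by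
    intro f hf
    rw [← integral_map mQ.aemeasurable hf.aestronglyMeasurable]
    have h1 : ∀ᵐ b ∂(γ.map Q), b ∈ (hQ.toFinset : Set β) := by
      exact (ae_map_iff mQ.aemeasurable hQ.toFinset.measurableSet).2
        (Filter.Eventually.of_forall fun p => hQ.mem_toFinset.2 ⟨p, rfl⟩)
    conv_rhs => rw [← Measure.restrict_eq_self_of_ae_mem h1]
    rw [setIntegral_finset _ (IntegrableOn.finset)]
    rw [Finset.sum_coe_sort S fun b => (γ.map Q).real {b} * f b, Finset.sum_filter]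
    refine Finset.sum_congr rfl fun b _ => ?_
    split_ifs with h
    · rfl
    · rw [le_antisymm (not_lt.1 h) measureReal_nonneg]; simp
  have h1 : ∑ i : S, (γ.map Q).real {i.1} = 1 := by simpa using key (fun _ => 1) measurable_const
  have hne : Nonempty S := by
    by_contra h
    rw [not_nonempty_iff] at h
    simp at h1
  refine ⟨S, inferInstance, hne, fun i => (γ.map Q).real {i.1}, fun i => i.1,
    fun i => (Finset.mem_filter.1 i.2).2, h1, Subtype.val_injective, fun i => ?_, key⟩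
  simpa using (Finset.mem_filter.1 i.2).1

theorem discretizable {ρ : Measure (Euc d)} [IsProbabilityMeasure ρ] {R L : ℝ} (hR : 0 < R)
    {T₀ T₁ : Euc d → Euc d} (m0 : Measurable T₀) (m1 : Measurable T₁)
    {Y : Set (Euc d)} (hY : IsCompact Y) (hn : Y.Nonempty) (hYL : ∀ y ∈ Y, ‖y‖ ≤ L)
    (h0 : ρ.map T₀ Yᶜ = 0) (h1 : ρ.map T₁ Yᶜ = 0) {γ : Measure (Euc d × Euc d)}
    (hγ : γ ∈ couplings (ρ.map T₀) (ρ.map T₁)) :
    Discretizable ρ R L T₀ T₁ (∫ p, ‖p.1 - p.2‖ ^ 2 ∂γ) := by
  intro η hη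
  have hL : 0 ≤ L := by obtain ⟨y, hy⟩ := hn; exact (norm_nonneg _).trans (hYL y hy)
  have p0 := Measure.isProbabilityMeasure_map (μ := ρ) m0.aemeasurable
  have : IsProbabilityMeasure γ := by
    constructor
    have := congrArg (fun μ => μ univ) hγ.1
    simpa [Measure.map_apply measurable_fst] using this
  have a0 : ∀ᵐ p ∂γ, p.1 ∈ Y := by
    apply ae_of_ae_map measurable_fst.aemeasurable (p := fun y => y ∈ Y)
    rw [hγ.1]; exact h0
  have a1 : ∀ᵐ p ∂γ, p.2 ∈ Y := by
    apply ae_of_ae_map measurable_snd.aemeasurable (p := fun y => y ∈ Y)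
    rw [hγ.2]; exact h1
  set δ := min 1 (η / (R + 8 * L + 4)) with hδ
  have δ0 : 0 < δ := lt_min one_pos (by positivity)
  have δ1 : δ ≤ 1 := min_le_left _ _
  have δ2 : δ * (R + 8 * L + 4) ≤ η := (le_div_iff₀ (by positivity)).1 (min_le_right _ _)
  obtain ⟨q, mq, fq, qY, hq⟩ := exists_net hY hn δ0
  obtain ⟨ι, _, _, m, z, hm, hm1, hz, hzr, key⟩ := exists_sum_rep γ
    (Q := fun p => (q p.1, q p.2)) (by fun_prop)
    ((fq.prod fq).subset (by rintro _ ⟨p, rfl⟩; exact ⟨⟨_, rfl⟩, ⟨_, rfl⟩⟩))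
  have hint : ∀ {u : Euc d × Euc d → Euc d × Euc d}, Measurable u →
      (∀ᵐ p ∂γ, (u p).1 ∈ Y ∧ (u p).2 ∈ Y) → ∀ f : Euc d × Euc d → ℝ, Continuous f →
      Integrable (fun p => f (u p)) γ := by
    intro u mu hu f hf
    obtain ⟨B, hB⟩ := (hY.prod hY).exists_bound_of_continuousOn hf.continuousOn
    exact integrable_of_ae_bound (hf.measurable.comp mu) B (hu.mono fun p hp => hB _ hp)
  have i1 := hint (u := fun p => p) measurable_id (a0.and a1)
  have i2 := hint (u := fun p => (q p.1, q p.2)) (by fun_prop)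
    (Filter.Eventually.of_forall fun p => ⟨qY _, qY _⟩)
  have approx : ∀ (π : Euc d × Euc d → Euc d) (T : Euc d → Euc d), Measurable T → Continuous π →
      γ.map π = ρ.map T → (∀ᵐ p ∂γ, ‖π (q p.1, q p.2) - π p‖ ≤ δ) →
      Approx ρ R T m (fun i => π (z i)) η := by
    intro π T mT cπ hπ hd ψ hψ
    have cψ := continuous_of_lip hψ
    rw [key (fun p => ψ (π p)) (by fun_prop), ← integral_map mT.aemeasurable
      cψ.aestronglyMeasurable, ← hπ, integral_map cπ.aemeasurable cψ.aestronglyMeasurable,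
      ← integral_sub (i2 (fun p => ψ (π p)) (by fun_prop)) (i1 (fun p => ψ (π p)) (by fun_prop))]
    have := abs_setIntegral_le (ρ := γ) univ (f := fun p => ψ (π (q p.1, q p.2)) - ψ (π p))
      (B := η) (hd.mono fun p hp => by
        have h2 := hψ (π (q p.1, q p.2)) (π p)
        have h3 := hψ (π p) (π (q p.1, q p.2))
        rw [norm_sub_rev] at h3
        have h4 := mul_le_mul_of_nonneg_left hp hR.le
        have h5 := mul_nonneg δ0.le hL
        rw [abs_le]; constructor <;> linarith)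
    simpa using this
  refine ⟨ι, inferInstance, inferInstance, m, fun i => (z i).1, fun i => (z i).2, hm, hm1, hz,
    fun i => ?_, fun i => ?_, approx Prod.fst T₀ m0 continuous_fst hγ.1 (a0.mono fun p => hq _),
    approx Prod.snd T₁ m1 continuous_snd hγ.2 (a1.mono fun p => hq _), ?_⟩
  · obtain ⟨p, hp⟩ := hzr i
    simp only [← hp]; exact hYL _ (qY _)
  · obtain ⟨p, hp⟩ := hzr i
    simp only [← hp]; exact hYL _ (qY _)
  · rw [key (fun p => ‖p.2 - p.1‖ ^ 2) (by fun_prop)]
    have : ∫ p, ‖q p.2 - q p.1‖ ^ 2 ∂γ ≤ ∫ p, (‖p.1 - p.2‖ ^ 2 + η) ∂γ := by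
      refine integral_mono_ae (i2 (fun p => ‖p.2 - p.1‖ ^ 2) (by fun_prop))
        ((i1 (fun p => ‖p.1 - p.2‖ ^ 2) (by fun_prop)).add (integrable_const _)) ?_
      filter_upwards [a0, a1] with p hp0 hp1
      have h2 : ‖q p.2 - q p.1‖ ≤ ‖p.1 - p.2‖ + 2 * δ := by
        have e : q p.2 - q p.1 = (q p.2 - p.2) - (p.1 - p.2) - (q p.1 - p.1) := by abel
        rw [e]
        refine (norm_sub_le _ _).trans ?_
        linarith [norm_sub_le (q p.2 - p.2) (p.1 - p.2), hq _ hp0, hq _ hp1]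
      have h3 : ‖p.1 - p.2‖ ≤ 2 * L := (norm_sub_le _ _).trans (by linarith [hYL _ hp0, hYL _ hp1])
      have h4 := pow_le_pow_left₀ (norm_nonneg _) h2 2
      have h5 := mul_le_mul_of_nonneg_left h3 δ0.le
      have h6 := mul_le_mul_of_nonneg_left δ1 δ0.le
      have h7 := mul_pos δ0 hR
      linarith
    rw [integral_add (i1 (fun p => ‖p.1 - p.2‖ ^ 2) (by fun_prop)) (integrable_const _)] at this
    simpa using this

end Vale.Agent.P074
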