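import Vale.Agent.P074.Defs
import Vale.Agent.Lib.helper16.PL

/-! Log-concavity of the uniform measure and strong convexity of the dual functional. -/

open MeasureTheory Set
open scoped ENNReal NNReal RealInnerProductSpace

namespace Vale.Agent.P074

variable {d : ℕ}

/-- Real form of the Prekopa-Leindler property of a measure carried by `K`. -/
def LogConc (ρ : Measure (Euc d)) (K : Set (Euc d)) : Prop :=
  ∀ s t : ℝ, 0 < s → 0 < t → s + t = 1 → ∀ f g h : Euc d → ℝ,
    Measurable f → Measurable g → Measurable h →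
    Integrable f ρ → Integrable g ρ → Integrable h ρ →
    (∀ x ∈ K, 0 ≤ f x) → (∀ x ∈ K, 0 ≤ g x) → (∀ x ∈ K, 0 ≤ h x) →
    (∀ᵐ z ∂ρ, ∀ x ∈ K, ∀ y ∈ K, s • x + t • y = z → f x ^ s * g y ^ t ≤ h z) →
    (∫ x, f x ∂ρ) ^ s * (∫ x, g x ∂ρ) ^ t ≤ ∫ x, h x ∂ρ

lemma vol_ne_zero {K : Set (Euc d)} (hi : (interior K).Nonempty) : volume K ≠ 0 :=
  (Measure.measure_pos_of_nonempty_interior volume hi).ne'

lemma isProb_unif {K : Set (Euc d)} (hK : IsCompact K) (hi : (interior K).Nonempty) :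
    IsProbabilityMeasure (unif K) := by
  constructor
  rw [unif, Measure.smul_apply, Measure.restrict_apply MeasurableSet.univ, univ_inter, smul_eq_mul]
  exact ENNReal.inv_mul_cancel (vol_ne_zero hi) hK.measure_lt_top.ne

lemma ae_mem_unif {K : Set (Euc d)} (hK : MeasurableSet K) : ∀ᵐ x ∂(unif K), x ∈ K :=
  Measure.ae_smul_measure (ae_restrict_mem hK) _

lemma unif_ac (K : Set (Euc d)) : unif K ≪ volume :=
  Measure.smul_absolutelyContinuous.trans Measure.restrict_le_self.absolutelyContinuous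

lemma ae_restrict_of_unif {K : Set (Euc d)} (hK : IsCompact K) {p : Euc d → Prop}
    (h : ∀ᵐ x ∂(unif K), p x) : ∀ᵐ x ∂(volume.restrict K), p x := by
  rw [unif, Measure.ae_ennreal_smul_measure_iff (ENNReal.inv_ne_zero.2 hK.measure_lt_top.ne)] at h
  exact h

theorem logConc_unif {K : Set (Euc d)} (hK : IsCompact K) (hc : Convex ℝ K)
    (hi : (interior K).Nonempty) : LogConc (unif K) K := by
  classical
  intro s t hs ht hst f g h hf hg hh hfi hgi hhi hf0 hg0 hh0 H
  have hKm := hK.measurableSet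
  have hV0 := vol_ne_zero hi
  have hVt : volume K ≠ ⊤ := hK.measure_lt_top.ne
  have H' := ae_restrict_of_unif hK H
  rw [ae_restrict_iff' hKm] at H'
  obtain ⟨N, hN1, hN2, hN3⟩ := exists_measurable_superset_of_null H'
  have PL := Vale.Agent.Lib.PL.prekopa_leindler hs ht hst d
    (K.indicator fun x => ENNReal.ofReal (f x)) (K.indicator fun x => ENNReal.ofReal (g x))
    (fun z => if z ∈ N then ⊤ else K.indicator (fun x => ENNReal.ofReal (h x)) z)
    (Measurable.indicator (by fun_prop) hKm) (Measurable.indicator (by fun_prop) hKm)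
    (Measurable.ite hN2 measurable_const (Measurable.indicator (by fun_prop) hKm)) (by
      intro x y
      by_cases hx : x ∈ K
      swap
      · simp [indicator_of_notMem hx, ENNReal.zero_rpow_of_pos hs]
      by_cases hy : y ∈ K
      swap
      · simp [indicator_of_notMem hy, ENNReal.zero_rpow_of_pos ht]
      have hz : s • x + t • y ∈ K := hc hx hy hs.le ht.le hst
      split_ifs with hN
      · exact le_top
      have h1 : s • x + t • y ∉ {z | z ∈ K → ∀ x ∈ K, ∀ y ∈ K, s • x + t • y = z →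
          f x ^ s * g y ^ t ≤ h z}ᶜ := fun h => hN (hN1 h)
      simp only [mem_compl_iff, not_not, mem_ofPred_eq] at h1
      rw [indicator_of_mem hx, indicator_of_mem hy, indicator_of_mem hz,
        ENNReal.ofReal_rpow_of_nonneg (hf0 x hx) hs.le,
        ENNReal.ofReal_rpow_of_nonneg (hg0 y hy) ht.le,
        ← ENNReal.ofReal_mul (Real.rpow_nonneg (hf0 x hx) _)]
      exact ENNReal.ofReal_le_ofReal (h1 hz x hx y hy rfl))
  have e1 : ∫⁻ z, (if z ∈ N then ⊤ else K.indicator (fun x => ENNReal.ofReal (h x)) z) =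
      ∫⁻ z, K.indicator (fun x => ENNReal.ofReal (h x)) z := by
    refine lintegral_congr_ae ?_
    have : ∀ᵐ z ∂(volume : Measure (Euc d)), z ∉ N := measure_eq_zero_iff_ae_notMem.1 hN3
    filter_upwards [this] with z hz
    rw [if_neg hz]
  have conv : ∀ u : Euc d → ℝ, Integrable u (unif K) → (∀ x ∈ K, 0 ≤ u x) →
      ∫⁻ z, K.indicator (fun x => ENNReal.ofReal (u x)) z =
        volume K * ENNReal.ofReal (∫ x, u x ∂(unif K)) := by
    intro u hu hu0
    rw [ofReal_integral_eq_lintegral_ofReal hu ((ae_mem_unif hKm).mono hu0), lintegral_indicator hKm,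
      unif, lintegral_smul_measure, smul_eq_mul, ← mul_assoc, ENNReal.mul_inv_cancel hV0 hVt,
      one_mul]
  rw [e1, conv f hfi hf0, conv g hgi hg0, conv h hhi hh0, ENNReal.mul_rpow_of_nonneg _ _ hs.le,
    ENNReal.mul_rpow_of_nonneg _ _ ht.le, mul_mul_mul_comm,
    ← ENNReal.rpow_add_of_nonneg _ _ hs.le ht.le, hst, ENNReal.rpow_one,
    ENNReal.mul_le_mul_iff_right hV0 hVt] at PL
  have nf : 0 ≤ ∫ x, f x ∂(unif K) := integral_nonneg_of_ae ((ae_mem_unif hKm).mono hf0)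
  have ng : 0 ≤ ∫ x, g x ∂(unif K) := integral_nonneg_of_ae ((ae_mem_unif hKm).mono hg0)
  have nh : 0 ≤ ∫ x, h x ∂(unif K) := integral_nonneg_of_ae ((ae_mem_unif hKm).mono hh0)
  rwa [ENNReal.ofReal_rpow_of_nonneg nf hs.le, ENNReal.ofReal_rpow_of_nonneg ng ht.le,
    ← ENNReal.ofReal_mul (Real.rpow_nonneg nf _), ENNReal.ofReal_le_ofReal_iff nh] at PL

lemma integrable_of_ae_bound {α : Type*} [MeasurableSpace α] {ρ : Measure α} [IsFiniteMeasure ρ]
    {f : α → ℝ} (hf : Measurable f) (B : ℝ) (h : ∀ᵐ x ∂ρ, |f x| ≤ B) : Integrable f ρ :=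
  Integrable.of_bound hf.aestronglyMeasurable B h

lemma exp_lower {x : ℝ} (hx : -2 ≤ x) : 1 + x + x ^ 2 / 4 ≤ Real.exp x := by
  have h1 := Real.add_one_le_exp (x / 2)
  have h2 : Real.exp x = Real.exp (x / 2) ^ 2 := by
    rw [← Real.exp_nat_mul]; congr 1; push_cast; ring
  rw [h2]
  have : (0 : ℝ) ≤ x / 2 + 1 := by linarith
  nlinarith

lemma exp_half_bounds {x : ℝ} (hx : |x| ≤ 1 / 2) : 1 / 2 ≤ Real.exp x ∧ Real.exp x ≤ 2 := by
  rw [abs_le] at hx
  have h1 := Real.add_one_le_exp x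
  have h2 := Real.add_one_le_exp (-x)
  have h3 : Real.exp x * Real.exp (-x) = 1 := by rw [← Real.exp_add]; simp
  have h4 := Real.exp_pos x
  constructor
  · linarith
  · nlinarith

theorem strong_small {ρ : Measure (Euc d)} [IsProbabilityMeasure ρ] {K : Set (Euc d)}
    (hL : LogConc ρ K) (hK : ∀ᵐ x ∂ρ, x ∈ K) {φ₀ φ₁ r : Euc d → ℝ}
    (m0 : Measurable φ₀) (m1 : Measurable φ₁) (mr : Measurable r)
    (b0 : ∀ x ∈ K, |φ₀ x| ≤ 1 / 2) (b1 : ∀ x ∈ K, |φ₁ x| ≤ 1 / 2) {B : ℝ}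
    (br : ∀ᵐ x ∂ρ, 0 ≤ r x ∧ r x ≤ B)
    (H : ∀ᵐ z ∂ρ, ∀ x ∈ K, ∀ y ∈ K, ∀ s t : ℝ, 0 < s → 0 < t → s + t = 1 → s • x + t • y = z →
      s * φ₀ z + t * φ₁ z - t * r z ≤ s * φ₀ x + t * φ₁ y) :
    ∃ κ : ℝ, ∫ x, (φ₁ x - φ₀ x - κ) ^ 2 ∂ρ ≤ 16 * ∫ x, r x ∂ρ := by
  set w : Euc d → ℝ := fun x => Real.exp (-φ₀ x) with hw
  have mw : Measurable w := by fun_prop
  have bw : ∀ x ∈ K, 1 / 2 ≤ w x ∧ w x ≤ 2 := fun x hx =>
    exp_half_bounds (by rw [abs_neg]; exact b0 x hx)
  have bw1 : ∀ x ∈ K, 1 / 2 ≤ Real.exp (-φ₁ x) ∧ Real.exp (-φ₁ x) ≤ 2 := fun x hx =>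
    exp_half_bounds (by rw [abs_neg]; exact b1 x hx)
  have iw : Integrable w ρ := integrable_of_ae_bound mw 2 (hK.mono fun x hx => by
    rw [abs_le]; constructor <;> linarith [(bw x hx).1, (bw x hx).2])
  have iw1 : Integrable (fun x => Real.exp (-φ₁ x)) ρ :=
    integrable_of_ae_bound (by fun_prop) 2 (hK.mono fun x hx => by
      rw [abs_le]; constructor <;> linarith [(bw1 x hx).1, (bw1 x hx).2])
  set Z0 := ∫ x, w x ∂ρ with hZ0
  set Z1 := ∫ x, Real.exp (-φ₁ x) ∂ρ with hZ1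
  have Z0pos : 0 < Z0 := by
    have : ∫ _, (1 / 2 : ℝ) ∂ρ ≤ Z0 :=
      integral_mono_ae (integrable_const _) iw (hK.mono fun x hx => (bw x hx).1)
    simp at this; linarith
  have Z1pos : 0 < Z1 := by
    have : ∫ _, (1 / 2 : ℝ) ∂ρ ≤ Z1 :=
      integral_mono_ae (integrable_const _) iw1 (hK.mono fun x hx => (bw1 x hx).1)
    simp at this; linarith
  have Z10 : Z1 ≤ Real.exp 1 * Z0 := by
    rw [hZ0, ← integral_const_mul]
    refine integral_mono_ae iw1 (iw.const_mul _) (hK.mono fun x hx => ?_)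
    simp only [hw, ← Real.exp_add]
    apply Real.exp_le_exp.2
    have := abs_le.1 (b0 x hx); have := abs_le.1 (b1 x hx); linarith
  set κ := Real.log (Z1 / Z0) with hκ
  have hκ1 : κ ≤ 1 := by
    rw [hκ, Real.log_le_iff_le_exp (by positivity), div_le_iff₀ Z0pos]; exact Z10
  have eκ : Real.exp κ = Z1 / Z0 := Real.exp_log (by positivity)
  set δ : Euc d → ℝ := fun x => φ₁ x - φ₀ x + κ with hδ
  have mδ : Measurable δ := by fun_prop
  have bδ : ∀ x ∈ K, |δ x| ≤ 1 + |κ| := fun x hx => by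
    have := abs_le.1 (b0 x hx); have := abs_le.1 (b1 x hx)
    have := le_abs_self κ; have := neg_abs_le κ
    simp only [hδ]; rw [abs_le]; constructor <;> linarith
  have bδ2 : ∀ x ∈ K, δ x ≤ 2 := fun x hx => by
    have := abs_le.1 (b0 x hx); have := abs_le.1 (b1 x hx)
    simp only [hδ]; linarith
  have eg : ∀ x, Real.exp (-(φ₁ x + κ)) = Real.exp (-φ₁ x) * (Z0 / Z1) := fun x => by
    rw [neg_add, Real.exp_add, Real.exp_neg κ, eκ, inv_div]
  have ig : Integrable (fun x => Real.exp (-(φ₁ x + κ))) ρ := by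
    simp only [eg]; exact iw1.mul_const _
  have intg : ∫ x, Real.exp (-(φ₁ x + κ)) ∂ρ = Z0 := by
    simp only [eg]; rw [integral_mul_const, ← hZ1]; field_simp
  set U := 1 + |κ| + |B| with hU
  have U1 : 1 ≤ U := by have := abs_nonneg κ; have := abs_nonneg B; linarith
  set u : Euc d → ℝ := fun x => δ x - r x with hu
  have mu : Measurable u := by fun_prop
  have bu : ∀ᵐ x ∂ρ, |u x| ≤ U := by
    filter_upwards [hK, br] with x hx hr
    have := abs_le.1 (bδ x hx); have := le_abs_self B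
    simp only [hu, hU]; rw [abs_le]; constructor <;> linarith [hr.1, hr.2]
  have iwu : Integrable (fun x => w x * u x) ρ :=
    integrable_of_ae_bound (by fun_prop) (2 * U) (by
      filter_upwards [hK, bu] with x hx h1
      rw [abs_mul, abs_of_pos (Real.exp_pos _)]
      exact mul_le_mul (bw x hx).2 h1 (abs_nonneg _) (by norm_num))
  have step1 : ∫ x, w x * u x ∂ρ ≤ 0 := by
    have key : ∀ t : ℝ, 0 < t → t < 1 / U → ∫ x, w x * u x ∂ρ ≤ t * (2 * U ^ 2) := by
      intro t ht htU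
      have htU' : t * U < 1 := by rwa [lt_div_iff₀ (by linarith)] at htU
      have ht1 : t < 1 := by nlinarith
      have btu : ∀ᵐ x ∂ρ, |-(t * u x)| ≤ 1 := by
        filter_upwards [bu] with x hx
        rw [abs_neg, abs_mul, abs_of_pos ht]; nlinarith
      have ih : Integrable (fun x => w x * Real.exp (-(t * u x))) ρ :=
        integrable_of_ae_bound (by fun_prop) (2 * Real.exp 1) (by
          filter_upwards [hK, btu] with x hx h1
          rw [abs_mul, abs_of_pos (Real.exp_pos _), abs_of_pos (Real.exp_pos _)]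
          exact mul_le_mul (bw x hx).2 (Real.exp_le_exp.2 (abs_le.1 h1).2) (Real.exp_pos _).le
            (by norm_num))
      have PL := hL (1 - t) t (by linarith) ht (by ring) w (fun x => Real.exp (-(φ₁ x + κ)))
        (fun x => w x * Real.exp (-(t * u x))) mw (by fun_prop) (by fun_prop) iw ig ih
        (fun x _ => (Real.exp_pos _).le) (fun x _ => (Real.exp_pos _).le)
        (fun x _ => by positivity) (by
          filter_upwards [H] with z hz x hx y hy hxy
          have := hz x hx y hy (1 - t) t (by linarith) ht (by ring) hxy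
          simp only [hw, ← Real.exp_mul, ← Real.exp_add]
          apply Real.exp_le_exp.2
          simp only [hu, hδ]
          nlinarith)
      rw [intg, ← hZ0, ← Real.rpow_add Z0pos, show 1 - t + t = 1 by ring, Real.rpow_one] at PL
      have h2 : ∫ x, w x * Real.exp (-(t * u x)) ∂ρ ≤
          ∫ x, (w x - t * (w x * u x) + t ^ 2 * (2 * U ^ 2)) ∂ρ := by
        refine integral_mono_ae ih ((iw.sub (iwu.const_mul _)).add (integrable_const _)) ?_
        filter_upwards [hK, btu, bu] with x hx h1 h2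
        have h3 := (abs_le.1 (Real.abs_exp_sub_one_sub_id_le h1)).2
        have h4 : u x ^ 2 ≤ U ^ 2 := sq_le_sq' (abs_le.1 h2).1 (abs_le.1 h2).2
        have h5 := bw x hx
        have h6 : w x * (t ^ 2 * u x ^ 2) ≤ 2 * (t ^ 2 * U ^ 2) := by
          apply mul_le_mul h5.2 (by gcongr) (by positivity) (by norm_num)
        have h7 : w x * Real.exp (-(t * u x)) ≤ w x * (1 - t * u x + t ^ 2 * u x ^ 2) := by
          apply mul_le_mul_of_nonneg_left _ (by linarith [h5.1]); nlinarith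
        nlinarith
      have i1 : Integrable (fun x => w x - t * (w x * u x)) ρ := iw.sub (iwu.const_mul _)
      rw [integral_add i1 (integrable_const _),
        integral_sub iw (iwu.const_mul _), integral_const_mul] at h2
      simp only [integral_const, probReal_univ, smul_eq_mul, one_mul] at h2
      have : t * ∫ x, w x * u x ∂ρ ≤ t * (t * (2 * U ^ 2)) := by nlinarith
      exact le_of_mul_le_mul_left this ht
    have hlim : Filter.Tendsto (fun t : ℝ => t * (2 * U ^ 2)) (nhdsWithin 0 (Ioi 0)) (nhds 0) := by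
      have : Filter.Tendsto (fun t : ℝ => t * (2 * U ^ 2)) (nhds 0) (nhds (0 * (2 * U ^ 2))) :=
        (continuous_id.mul continuous_const).tendsto 0
      rw [zero_mul] at this
      exact this.mono_left nhdsWithin_le_nhds
    refine ge_of_tendsto hlim ?_
    filter_upwards [Ioo_mem_nhdsGT (show (0 : ℝ) < 1 / U by positivity)] with t ht
    exact key t ht.1 ht.2
  have ir : Integrable r ρ := integrable_of_ae_bound mr B (br.mono fun x hx => by
    rw [abs_of_nonneg hx.1]; exact hx.2)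
  have iδ2 : Integrable (fun x => δ x ^ 2) ρ :=
    integrable_of_ae_bound (by fun_prop) ((1 + |κ|) ^ 2) (hK.mono fun x hx => by
      rw [abs_pow]; gcongr; exact bδ x hx)
  have step2 : ∫ x, (w x - w x * u x - 2 * r x + δ x ^ 2 / 8) ∂ρ ≤ Z0 := by
    rw [← intg]
    refine integral_mono_ae (((iw.sub iwu).sub (ir.const_mul _)).add (iδ2.div_const _)) ig ?_
    filter_upwards [hK, br] with x hx hr
    have h1 : Real.exp (-(φ₁ x + κ)) = w x * Real.exp (-δ x) := by
      simp only [hw, hδ, ← Real.exp_add]; congr 1; ring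
    have h2 := exp_lower (x := -δ x) (by linarith [bδ2 x hx])
    have h5 := bw x hx
    have h3 : w x * (1 + -δ x + (-δ x) ^ 2 / 4) ≤ w x * Real.exp (-δ x) :=
      mul_le_mul_of_nonneg_left h2 (by linarith [h5.1])
    have h4 : w x * r x ≤ 2 * r x := mul_le_mul_of_nonneg_right h5.2 hr.1
    have h6 : 1 / 2 * δ x ^ 2 ≤ w x * δ x ^ 2 := mul_le_mul_of_nonneg_right h5.1 (sq_nonneg _)
    simp only [h1, hu]
    nlinarith
  have i1 : Integrable (fun x => w x - w x * u x) ρ := iw.sub iwu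
  have i2 : Integrable (fun x => w x - w x * u x - 2 * r x) ρ := i1.sub (ir.const_mul _)
  rw [integral_add i2 (iδ2.div_const _),
    integral_sub i1 (ir.const_mul _), integral_sub iw iwu, integral_const_mul,
    integral_div] at step2
  refine ⟨-κ, ?_⟩
  simp only [sub_neg_eq_add]
  change ∫ x, δ x ^ 2 ∂ρ ≤ _
  linarith

theorem strong_convex {ρ : Measure (Euc d)} [IsProbabilityMeasure ρ] {K : Set (Euc d)}
    (hL : LogConc ρ K) (hK : ∀ᵐ x ∂ρ, x ∈ K) {φ₀ φ₁ r : Euc d → ℝ}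
    (m0 : Measurable φ₀) (m1 : Measurable φ₁) (mr : Measurable r) {M : ℝ} (hM : 0 < M)
    {x₀ : Euc d} (b0 : ∀ x ∈ K, |φ₀ x - φ₀ x₀| ≤ M) (b1 : ∀ x ∈ K, |φ₁ x - φ₁ x₀| ≤ M) {B : ℝ}
    (br : ∀ᵐ x ∂ρ, 0 ≤ r x ∧ r x ≤ B)
    (H : ∀ᵐ z ∂ρ, ∀ x ∈ K, ∀ y ∈ K, ∀ s t : ℝ, 0 < s → 0 < t → s + t = 1 → s • x + t • y = z →
      s * φ₀ z + t * φ₁ z - t * r z ≤ s * φ₀ x + t * φ₁ y) :
    ∃ κ : ℝ, ∫ x, (φ₁ x - φ₀ x - κ) ^ 2 ∂ρ ≤ 32 * M * ∫ x, r x ∂ρ := by
  have hM2 : 0 < 2 * M := by linarith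
  obtain ⟨κ, hκ⟩ := strong_small hL hK (φ₀ := fun x => (φ₀ x - φ₀ x₀) / (2 * M))
    (φ₁ := fun x => (φ₁ x - φ₁ x₀) / (2 * M)) (r := fun x => r x / (2 * M)) (B := B / (2 * M))
    (by fun_prop) (by fun_prop) (by fun_prop)
    (fun x hx => by
      rw [abs_div, abs_of_pos hM2, div_le_iff₀ hM2]; linarith [b0 x hx])
    (fun x hx => by
      rw [abs_div, abs_of_pos hM2, div_le_iff₀ hM2]; linarith [b1 x hx])
    (br.mono fun x hx => ⟨div_nonneg hx.1 hM2.le, by gcongr; exact hx.2⟩)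
    (by
      filter_upwards [H] with z hz x hx y hy s t hs ht hst hxy
      have := hz x hx y hy s t hs ht hst hxy
      have e1 : s * ((φ₀ z - φ₀ x₀) / (2 * M)) + t * ((φ₁ z - φ₁ x₀) / (2 * M)) -
          t * (r z / (2 * M)) =
          (s * φ₀ z + t * φ₁ z - t * r z - s * φ₀ x₀ - t * φ₁ x₀) / (2 * M) := by ring
      have e2 : s * ((φ₀ x - φ₀ x₀) / (2 * M)) + t * ((φ₁ y - φ₁ x₀) / (2 * M)) =
          (s * φ₀ x + t * φ₁ y - s * φ₀ x₀ - t * φ₁ x₀) / (2 * M) := by ring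
      rw [e1, e2]
      gcongr)
  refine ⟨2 * M * κ + φ₁ x₀ - φ₀ x₀, ?_⟩
  have e : ∀ x, (φ₁ x - φ₀ x - (2 * M * κ + φ₁ x₀ - φ₀ x₀)) ^ 2 =
      (2 * M) ^ 2 * ((φ₁ x - φ₁ x₀) / (2 * M) - (φ₀ x - φ₀ x₀) / (2 * M) - κ) ^ 2 := fun x => by
    field_simp; ring
  simp only [e]
  rw [integral_const_mul]
  rw [integral_div] at hκ
  calc _ ≤ (2 * M) ^ 2 * (16 * ((∫ x, r x ∂ρ) / (2 * M))) := by gcongr
    _ = _ := by field_simp; ring

end Vale.Agent.P074
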