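import Vale.Agent.P074.Defs

/-! Three-atom examples: no exponent above one third is admissible. -/

open MeasureTheory Set
open scoped ENNReal NNReal RealInnerProductSpace

namespace Vale.Agent.P074

lemma optimal_of_pot {d : ℕ} (ρ : Measure (Euc d)) {T : Euc d → Euc d} (hT : Measurable T)
    {A : Set (Euc d)} (hA : MeasurableSet A) (hTA : ∀ x, T x ∈ A) (v : Euc d)
    (hmax : ∀ x, ∀ y ∈ A, ⟪x + v, y⟫ ≤ ⟪x + v, T x⟫)
    (hfin : ∫⁻ x, ‖T x + v‖ₑ ^ 2 ∂ρ ≠ ⊤) : IsOptimalMap ρ (ρ.map T) T := by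
  refine ⟨hT, rfl, fun S hS hSμ => ?_⟩
  have hSA : ∀ᵐ x ∂ρ, S x ∈ A := by
    have h1 : ∀ᵐ y ∂(ρ.map S), y ∈ A := by
      rw [hSμ]
      exact (ae_map_iff hT.aemeasurable hA).2 (Filter.Eventually.of_forall hTA)
    exact ae_of_ae_map hS.aemeasurable h1
  have hm : Measurable fun y : Euc d => ‖y + v‖ₑ ^ 2 := by fun_prop
  have heq : ∫⁻ x, ‖S x + v‖ₑ ^ 2 ∂ρ = ∫⁻ x, ‖T x + v‖ₑ ^ 2 ∂ρ := by
    rw [← lintegral_map hm hS, ← lintegral_map hm hT, hSμ]
  have hle : cost ρ T + ∫⁻ x, ‖S x + v‖ₑ ^ 2 ∂ρ ≤ cost ρ S + ∫⁻ x, ‖T x + v‖ₑ ^ 2 ∂ρ := by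
    unfold cost
    rw [← lintegral_add_left (by fun_prop), ← lintegral_add_left (by fun_prop)]
    refine lintegral_mono_ae ?_
    filter_upwards [hSA] with x hx
    have h := hmax x _ hx
    have : ‖x - T x‖ ^ 2 + ‖S x + v‖ ^ 2 ≤ ‖x - S x‖ ^ 2 + ‖T x + v‖ ^ 2 := by
      rw [norm_sub_sq_real, norm_sub_sq_real, norm_add_sq_real, norm_add_sq_real]
      rw [inner_add_left, inner_add_left, real_inner_comm (S x) v, real_inner_comm (T x) v] at h
      linarith
    simp only [← ofReal_norm]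
    rw [← ENNReal.ofReal_pow (norm_nonneg _), ← ENNReal.ofReal_pow (norm_nonneg _),
      ← ENNReal.ofReal_pow (norm_nonneg _), ← ENNReal.ofReal_pow (norm_nonneg _),
      ← ENNReal.ofReal_add (by positivity) (by positivity),
      ← ENNReal.ofReal_add (by positivity) (by positivity)]
    exact ENNReal.ofReal_le_ofReal this
  rw [heq] at hle
  exact (ENNReal.add_le_add_iff_right hfin).1 hle

/-- A box with two free sides. -/
def box (n : ℕ) (a0 b0 a1 b1 : ℝ) : Set (Euc (n + 2)) :=
  {x | x 0 ∈ Icc a0 b0 ∧ x 1 ∈ Icc a1 b1 ∧ ∀ i : Fin n, x i.succ.succ ∈ Icc (-1 : ℝ) 1}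

lemma box_eq (n : ℕ) (a0 b0 a1 b1 : ℝ) : box n a0 b0 a1 b1 =
    WithLp.ofLp ⁻¹' (Icc (Fin.cons a0 (Fin.cons a1 fun _ => -1) : Fin (n + 2) → ℝ)
      (Fin.cons b0 (Fin.cons b1 fun _ => 1))) := by
  ext x
  simp only [box, mem_ofPred_eq, mem_Icc, mem_preimage, Pi.le_def, Fin.forall_fin_succ,
    Fin.cons_zero, Fin.cons_succ, Fin.succ_zero_eq_one, forall_and]
  tauto

lemma vol_box (n : ℕ) (a0 b0 a1 b1 : ℝ) : volume (box n a0 b0 a1 b1) =
    ENNReal.ofReal (b0 - a0) * ENNReal.ofReal (b1 - a1) * 2 ^ n := by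
  rw [box_eq, (PiLp.volume_preserving_ofLp _).measure_preimage
    measurableSet_Icc.nullMeasurableSet, Real.volume_Icc_pi, Fin.prod_univ_succ, Fin.prod_univ_succ]
  simp only [Fin.cons_zero, Fin.cons_succ, Fin.succ_zero_eq_one, Fin.cons_one]
  norm_num [mul_assoc]

lemma isCompact_box (n : ℕ) (a0 b0 a1 b1 : ℝ) : IsCompact (box n a0 b0 a1 b1) := by
  rw [box_eq]
  exact (PiLp.homeomorph 2 (fun _ : Fin (n + 2) => ℝ)).isCompact_preimage.2 isCompact_Icc

lemma measurableSet_box (n : ℕ) (a0 b0 a1 b1 : ℝ) : MeasurableSet (box n a0 b0 a1 b1) :=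
  (isCompact_box n a0 b0 a1 b1).measurableSet

lemma convex_box (n : ℕ) (a0 b0 a1 b1 : ℝ) : Convex ℝ (box n a0 b0 a1 b1) := by
  rw [box_eq]
  exact (convex_Icc _ _).linear_preimage (WithLp.linearEquiv 2 ℝ (Fin (n + 2) → ℝ)).toLinearMap

/-- The cube. -/
def cube (n : ℕ) : Set (Euc (n + 2)) := box n (-1) 1 (-1) 1

lemma interior_cube (n : ℕ) : (interior (cube n)).Nonempty := by
  refine ⟨0, mem_interior.2 ⟨Metric.ball 0 1, fun x hx => ?_, Metric.isOpen_ball, by simp⟩⟩
  have h : ∀ i, x i ∈ Icc (-1 : ℝ) 1 := fun i => by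
    have h1 := PiLp.norm_apply_le x i
    rw [mem_ball_zero_iff] at hx
    exact abs_le.1 (h1.trans hx.le)
  exact ⟨h _, h _, fun i => h _⟩

lemma vol_cube (n : ℕ) : volume (cube n) = 4 * 2 ^ n := by
  rw [cube, vol_box]; norm_num

lemma unif_box (n : ℕ) {a0 b0 a1 b1 : ℝ} (h : box n a0 b0 a1 b1 ⊆ cube n) :
    unif (cube n) (box n a0 b0 a1 b1) = ENNReal.ofReal (b0 - a0) * ENNReal.ofReal (b1 - a1) / 4 := by
  rw [unif, Measure.smul_apply, Measure.restrict_apply (measurableSet_box _ _ _ _ _),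
    inter_eq_left.2 h, vol_box, vol_cube, smul_eq_mul,
    ENNReal.mul_inv (by simp) (by simp), div_eq_mul_inv]
  have : ((2 : ℝ≥0∞) ^ n)⁻¹ * 2 ^ n = 1 := ENNReal.inv_mul_cancel (by simp) (by simp)
  calc _ = ENNReal.ofReal (b0 - a0) * ENNReal.ofReal (b1 - a1) * 4⁻¹ *
      (((2 : ℝ≥0∞) ^ n)⁻¹ * 2 ^ n) := by ring
    _ = _ := by rw [this, mul_one]

instance (n : ℕ) : IsProbabilityMeasure (unif (cube n)) := by
  constructor
  rw [unif, Measure.smul_apply, Measure.restrict_apply MeasurableSet.univ, univ_inter, smul_eq_mul]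
  exact ENNReal.inv_mul_cancel (by simp [vol_cube]) (by simp [vol_cube, ENNReal.mul_eq_top])

/-- The three-atom optimal maps. -/
noncomputable def tri (n : ℕ) (m σ : ℝ) (x : Euc (n + 2)) : Euc (n + 2) :=
  if |x 0| < m + σ * m * x 1 then EuclideanSpace.single 1 (σ * m)
  else if 0 ≤ x 0 then EuclideanSpace.single 0 1 else EuclideanSpace.single 0 (-1)

lemma measurable_tri (n : ℕ) (m σ : ℝ) : Measurable (tri n m σ) := by
  unfold tri
  refine Measurable.ite (measurableSet_lt (by fun_prop) (by fun_prop)) measurable_const ?_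
  exact Measurable.ite (measurableSet_le (by fun_prop) (by fun_prop)) measurable_const
    measurable_const

lemma norm_tri (n : ℕ) {m σ : ℝ} (hm : |m| ≤ 1) (hσ : |σ| = 1) (x : Euc (n + 2)) :
    ‖tri n m σ x‖ ≤ 1 := by
  unfold tri
  split_ifs <;> simp [hσ, hm]

lemma optimal_tri (n : ℕ) {m σ : ℝ} (hm : |m| ≤ 1) (hσ : |σ| = 1) :
    IsOptimalMap (unif (cube n)) ((unif (cube n)).map (tri n m σ)) (tri n m σ) := by
  have hσ2 : σ * σ = 1 := by rw [← abs_mul_abs_self, hσ, one_mul]
  refine optimal_of_pot _ (measurable_tri n m σ)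
    (A := {EuclideanSpace.single 1 (σ * m), EuclideanSpace.single 0 1,
      EuclideanSpace.single 0 (-1)}) (Set.toFinite _).measurableSet ?_
      (EuclideanSpace.single 1 σ) ?_ ?_
  · intro x; unfold tri; split_ifs <;> simp
  · intro x y hy
    have e1 : ⟪x + EuclideanSpace.single 1 σ, EuclideanSpace.single (1 : Fin (n + 2)) (σ * m)⟫
        = m + σ * m * x 1 := by
      simp [EuclideanSpace.inner_single_right]
      linear_combination m * hσ2
    have e2 : ⟪x + EuclideanSpace.single 1 σ, EuclideanSpace.single (0 : Fin (n + 2)) (1 : ℝ)⟫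
        = x 0 := by
      simp [EuclideanSpace.inner_single_right]
    have e3 : ⟪x + EuclideanSpace.single 1 σ, EuclideanSpace.single (0 : Fin (n + 2)) (-1 : ℝ)⟫
        = - x 0 := by
      simp [EuclideanSpace.inner_single_right]
    have a1 := le_abs_self (x 0)
    have a2 := neg_abs_le (x 0)
    unfold tri
    simp only [mem_insert_iff, mem_singleton_iff] at hy
    rcases hy with rfl | rfl | rfl <;> split_ifs with h1 h2 <;> simp only [e1, e2, e3, le_refl] <;>
      first
        | linarith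
        | (rw [abs_of_nonneg h2] at h1; linarith)
        | (rw [abs_of_neg (not_le.1 h2)] at h1; linarith)
  · refine ne_top_of_le_ne_top (b := ∫⁻ _, 4 ∂(unif (cube n))) (by simp) (lintegral_mono fun x => ?_)
    have h1 : ‖tri n m σ x + EuclideanSpace.single 1 σ‖ ≤ 2 := by
      refine (norm_add_le _ _).trans ?_
      have := norm_tri n hm hσ x
      simp only [PiLp.norm_single, Real.norm_eq_abs, hσ]
      linarith
    have h2 : ‖tri n m σ x + EuclideanSpace.single 1 σ‖ₑ ≤ 2 := by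
      rw [← ofReal_norm]
      simpa using ENNReal.ofReal_le_ofReal h1
    calc _ ≤ (2 : ℝ≥0∞) ^ 2 := by gcongr
      _ = 4 := by norm_num

/-- Reflection of the second coordinate. -/
noncomputable def refl1 (n : ℕ) (x : Euc (n + 2)) : Euc (n + 2) :=
  WithLp.toLp 2 fun i => if i = 1 then - x i else x i

lemma measurePreserving_refl1 (n : ℕ) : MeasurePreserving (refl1 n) volume volume := by
  have h1 : MeasurePreserving (fun (a : Fin (n + 2) → ℝ) (i : Fin (n + 2)) =>
      (fun (i : Fin (n + 2)) (t : ℝ) => if i = 1 then -t else t) i (a i)) volume volume := by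
    refine volume_preserving_pi (α' := fun _ => ℝ) (β' := fun _ => ℝ)
      (f := fun (i : Fin (n + 2)) (t : ℝ) => if i = 1 then -t else t) fun i => ?_
    by_cases hi : i = 1
    · simpa [hi] using Measure.measurePreserving_neg (volume : Measure ℝ)
    · simp only [hi, if_false]; exact MeasurePreserving.id (volume : Measure ℝ)
  exact ((PiLp.volume_preserving_toLp _).comp h1).comp (PiLp.volume_preserving_ofLp _)

lemma refl1_preimage (n : ℕ) : refl1 n ⁻¹' cube n = cube n := by
  ext x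
  have : ∀ i : Fin n, i.succ.succ ≠ (1 : Fin (n + 2)) := fun i => by
    rw [← Fin.succ_zero_eq_one]
    exact fun h => Fin.succ_ne_zero _ (Fin.succ_injective _ h)
  simp only [cube, box, refl1, mem_preimage, mem_ofPred_eq, mem_Icc, this, if_false]
  simp only [Fin.zero_eq_one_iff, if_true]
  constructor <;> rintro ⟨h1, h2, h3⟩ <;> refine ⟨by simpa using h1, ?_, h3⟩ <;>
    constructor <;> linarith [h2.1, h2.2]

lemma measurePreserving_refl1_unif (n : ℕ) :
    MeasurePreserving (refl1 n) (unif (cube n)) (unif (cube n)) := by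
  have := (measurePreserving_refl1 n).restrict_preimage (measurableSet_box n (-1) 1 (-1) 1)
  rw [show box n (-1) 1 (-1) 1 = cube n from rfl, refl1_preimage] at this
  exact this.smul_measure _

lemma refl1_tri (n : ℕ) (m : ℝ) (x : Euc (n + 2)) :
    refl1 n (tri n m 1 x) = tri n m (-1) (refl1 n x) := by
  have e0 : refl1 n x 0 = x 0 := by simp [refl1]
  have e1 : refl1 n x 1 = - x 1 := by simp [refl1]
  unfold tri
  rw [e0, e1]
  have : m + -1 * m * -x 1 = m + 1 * m * x 1 := by ring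
  rw [this]
  split_ifs
  · ext i; by_cases hi : i = 1 <;> simp [refl1, hi]
  · ext i; by_cases hi : i = 1 <;> simp [refl1, hi]
  · ext i; by_cases hi : i = 1 <;> simp [refl1, hi]

lemma W2_tri (n : ℕ) {m : ℝ} (hm0 : 0 < m) (hm : m ≤ 1 / 2) :
    W2 ((unif (cube n)).map (tri n m 1)) ((unif (cube n)).map (tri n m (-1))) ≤
      (ENNReal.ofReal (8 * m ^ 3)) ^ (1 / 2 : ℝ) := by
  have hR := (measurePreserving_refl1_unif n).measurable
  have hT := measurable_tri n m 1
  have hmeas : Measurable fun x => (tri n m 1 x, refl1 n (tri n m 1 x)) := by fun_prop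
  have hπ : (unif (cube n)).map (fun x => (tri n m 1 x, refl1 n (tri n m 1 x))) ∈
      couplings ((unif (cube n)).map (tri n m 1)) ((unif (cube n)).map (tri n m (-1))) := by
    constructor
    · rw [Measure.map_map measurable_fst hmeas]; rfl
    · rw [Measure.map_map measurable_snd hmeas]
      conv_rhs => rw [← (measurePreserving_refl1_unif n).map_eq]
      rw [Measure.map_map (measurable_tri n m (-1)) hR]
      congr 1; funext x; exact refl1_tri n m x
  refine (iInf₂_le _ hπ).trans ?_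
  gcongr
  rw [lintegral_map (by fun_prop) hmeas]
  have hsub : box n (-(2 * m)) (2 * m) (-1) 1 ⊆ cube n := fun x hx =>
    ⟨⟨by linarith [hx.1.1], by linarith [hx.1.2]⟩, hx.2⟩
  calc _ ≤ ∫⁻ x, (box n (-(2 * m)) (2 * m) (-1) 1).indicator
        (fun _ => ENNReal.ofReal (4 * m ^ 2)) x ∂(unif (cube n)) := by
        refine lintegral_mono_ae ?_
        have hK : ∀ᵐ x ∂(unif (cube n)), x ∈ cube n :=
          Measure.ae_smul_measure (ae_restrict_mem (measurableSet_box _ _ _ _ _)) _
        filter_upwards [hK] with x hx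
        by_cases h1 : |x 0| < m + 1 * m * x 1
        · have hx' : x ∈ box n (-(2 * m)) (2 * m) (-1) 1 := by
            refine ⟨abs_le.1 ?_, hx.2⟩
            nlinarith [hx.2.1.2]
          rw [indicator_of_mem hx']
          have : tri n m 1 x - refl1 n (tri n m 1 x) = EuclideanSpace.single 1 (2 * m) := by
            unfold tri; rw [if_pos h1]
            ext i; by_cases hi : i = 1 <;> simp [refl1, hi]; ring
          simp only [this]
          rw [← ofReal_norm, ← ENNReal.ofReal_pow (norm_nonneg _)]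
          apply ENNReal.ofReal_le_ofReal
          simp only [PiLp.norm_single, Real.norm_eq_abs, sq_abs]
          nlinarith
        · have : tri n m 1 x - refl1 n (tri n m 1 x) = 0 := by
            unfold tri; rw [if_neg h1]
            split_ifs <;> ext i <;> by_cases hi : i = 1 <;> simp [refl1, hi]
          simp [this]
    _ = ENNReal.ofReal (8 * m ^ 3) := by
        rw [lintegral_indicator_const (measurableSet_box _ _ _ _ _), unif_box n hsub,
          ← ENNReal.ofReal_mul (by linarith), show (4 : ℝ≥0∞) = ENNReal.ofReal 4 by simp,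
          ← ENNReal.ofReal_div_of_pos (by norm_num), ← ENNReal.ofReal_mul (by positivity)]
        congr 1; ring

lemma dist_tri (n : ℕ) {m : ℝ} (hm0 : 0 < m) (hm : m ≤ 1 / 2) :
    (ENNReal.ofReal (m / 16)) ^ (1 / 2 : ℝ) ≤
      distL2 (unif (cube n)) (tri n m 1) (tri n m (-1)) := by
  unfold distL2
  gcongr
  have hsub : box n (m / 2) m (1 / 2) 1 ⊆ cube n := fun x hx =>
    ⟨⟨by linarith [hx.1.1], by linarith [hx.1.2]⟩, ⟨by linarith [hx.2.1.1], hx.2.1.2⟩, hx.2.2⟩
  calc ENNReal.ofReal (m / 16) = ∫⁻ x, (box n (m / 2) m (1 / 2) 1).indicator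
        (fun _ => 1) x ∂(unif (cube n)) := by
        rw [lintegral_indicator_const (measurableSet_box _ _ _ _ _), unif_box n hsub,
          ← ENNReal.ofReal_mul (by linarith), show (4 : ℝ≥0∞) = ENNReal.ofReal 4 by simp,
          ← ENNReal.ofReal_div_of_pos (by norm_num), one_mul]
        congr 1; ring
    _ ≤ _ := by
        refine lintegral_mono fun x => ?_
        by_cases hx : x ∈ box n (m / 2) m (1 / 2) 1
        · rw [indicator_of_mem hx]
          have h0 : 0 ≤ x 0 := by linarith [hx.1.1]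
          have h1 : |x 0| < m + 1 * m * x 1 := by
            rw [abs_of_nonneg h0]; nlinarith [hx.1.2, hx.2.1.1]
          have h2 : ¬ |x 0| < m + -1 * m * x 1 := by
            rw [abs_of_nonneg h0, not_lt]; nlinarith [hx.1.1, hx.2.1.1]
          have h3 : (1 : ℝ) ≤ ‖tri n m 1 x - tri n m (-1) x‖ := by
            refine le_trans ?_ (PiLp.norm_apply_le _ 0)
            unfold tri; rw [if_pos h1, if_neg h2, if_pos h0]
            simp
          have h4 : (1 : ℝ≥0∞) ≤ ‖tri n m 1 x - tri n m (-1) x‖ₑ := by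
            rw [← ofReal_norm]
            simpa using ENNReal.ofReal_le_ofReal h3
          exact one_le_pow₀ h4
        · rw [indicator_of_notMem hx]; exact zero_le

theorem le_third_of_admissible {d : ℕ} (hd : 2 ≤ d) {α : ℝ} (hα0 : 0 < α)
    (h : Admissible d α) : α ≤ 1 / 3 := by
  obtain ⟨n, rfl⟩ : ∃ n, d = n + 2 := ⟨d - 2, by omega⟩
  by_contra hα
  push Not at hα
  obtain ⟨C, hC⟩ := h (cube n) (isCompact_box _ _ _ _ _) (convex_box _ _ _ _ _) (interior_cube n)
    (Metric.closedBall 0 1) (isCompact_closedBall _ _) ⟨0, by simp⟩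
  have key : ∀ m : ℝ, 0 < m → m ≤ 1 / 2 → 1 / 16 ≤ (C : ℝ) ^ 2 * 8 ^ α * m ^ (3 * α - 1) := by
    intro m hm0 hm
    have hm1 : |m| ≤ 1 := by rw [abs_of_pos hm0]; linarith
    have hY : ∀ σ : ℝ, |σ| = 1 →
        ((unif (cube n)).map (tri n m σ)) (Metric.closedBall 0 1)ᶜ = 0 := by
      intro σ hσ
      rw [Measure.map_apply (measurable_tri n m σ) measurableSet_closedBall.compl]
      convert measure_empty (μ := unif (cube n))
      ext x; simpa using norm_tri n hm1 hσ x
    have h1 := hC _ _ (Measure.isProbabilityMeasure_map (measurable_tri n m 1).aemeasurable)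
      (Measure.isProbabilityMeasure_map (measurable_tri n m (-1)).aemeasurable)
      (hY 1 (by simp)) (hY (-1) (by simp)) _ _ (optimal_tri n hm1 (by simp))
      (optimal_tri n hm1 (by simp))
    have h2 : (ENNReal.ofReal (m / 16)) ^ (1 / 2 : ℝ) ≤
        C * ((ENNReal.ofReal (8 * m ^ 3)) ^ (1 / 2 : ℝ)) ^ α := by
      refine (dist_tri n hm0 hm).trans (h1.trans ?_)
      gcongr
      exact W2_tri n hm0 hm
    rw [ENNReal.ofReal_rpow_of_nonneg (by positivity) (by norm_num),
      ENNReal.ofReal_rpow_of_nonneg (by positivity) (by norm_num),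
      ENNReal.ofReal_rpow_of_nonneg (by positivity) hα0.le, ← ENNReal.ofReal_coe_nnreal,
      ← ENNReal.ofReal_mul C.coe_nonneg, ENNReal.ofReal_le_ofReal_iff (by positivity)] at h2
    have h3 := pow_le_pow_left₀ (by positivity) h2 2
    rw [← Real.rpow_natCast, ← Real.rpow_mul (by positivity), mul_pow,
      ← Real.rpow_mul (by positivity), ← Real.rpow_natCast (_ ^ (1 / 2 * α)),
      ← Real.rpow_mul (by positivity)] at h3
    have e1 : (1 / 2 : ℝ) * ((2 : ℕ) : ℝ) = 1 := by norm_num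
    have e2 : (1 / 2 : ℝ) * α * ((2 : ℕ) : ℝ) = α := by push_cast; ring
    rw [e1, e2, Real.rpow_one, Real.mul_rpow (by norm_num) (by positivity),
      ← Real.rpow_natCast m 3, ← Real.rpow_mul hm0.le] at h3
    have e3 : m ^ (((3 : ℕ) : ℝ) * α) = m ^ (3 * α - 1) * m := by
      rw [← Real.rpow_add_one hm0.ne']; congr 1; push_cast; ring
    rw [e3] at h3
    have : (1 / 16) * m ≤ ((C : ℝ) ^ 2 * 8 ^ α * m ^ (3 * α - 1)) * m := by
      calc (1 / 16) * m = m / 16 := by ring
        _ ≤ _ := h3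
        _ = _ := by ring
    exact le_of_mul_le_mul_right this hm0
  have hβ : 0 < 3 * α - 1 := by linarith
  have ht : Filter.Tendsto (fun m : ℝ => (C : ℝ) ^ 2 * 8 ^ α * m ^ (3 * α - 1))
      (nhdsWithin 0 (Ioi 0)) (nhds ((C : ℝ) ^ 2 * 8 ^ α * (0 : ℝ) ^ (3 * α - 1))) :=
    (((Real.continuousAt_rpow_const 0 _ (Or.inr hβ.le)).tendsto.const_mul _)).mono_left
      nhdsWithin_le_nhds
  rw [Real.zero_rpow hβ.ne', mul_zero] at ht
  have : (1 / 16 : ℝ) ≤ 0 := by
    refine ge_of_tendsto ht ?_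
    filter_upwards [Ioc_mem_nhdsGT (show (0 : ℝ) < 1 / 2 by norm_num)] with m hm
    exact key m hm.1 hm.2
  norm_num at this

end Vale.Agent.P074
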