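import Vale.Agent.P074.Pot
import Vale.Agent.P074.Disc
import Vale.Agent.P074.Upper

/-! The exponent one third is admissible. -/

open MeasureTheory Set Filter
open scoped ENNReal NNReal RealInnerProductSpace Topology

namespace Vale.Agent.P074

variable {d : ℕ}

lemma optimize {D c A B r M α : ℝ} (hA : 0 ≤ A) (hB : 0 ≤ B) (hr : 0 < r) (hc : 0 ≤ c)
    (hM : 0 ≤ M) (hD : D ≤ M) (hα0 : 0 < α) (hα : α ≤ 1 / 3)
    (H : ∀ h, 0 < h → h ≤ r → h ^ 2 * D ≤ A * c + B * h ^ 3) :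
    D ≤ (A + B + M / r + M) * c ^ α := by
  rcases hc.eq_or_lt with rfl | hc0
  · rw [Real.zero_rpow hα0.ne', mul_zero]
    have lim : Tendsto (fun h : ℝ => B * h) (𝓝[>] 0) (𝓝 (B * 0)) :=
      ((continuous_const.mul continuous_id).tendsto 0).mono_left nhdsWithin_le_nhds
    rw [mul_zero] at lim
    refine ge_of_tendsto lim ?_
    filter_upwards [Ioc_mem_nhdsGT hr] with h hh
    have := H h hh.1 hh.2
    have h2 : h ^ 2 * D ≤ h ^ 2 * (B * h) := by linarith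
    exact le_of_mul_le_mul_left h2 (pow_pos hh.1 2)
  have hp : 0 < c ^ α := Real.rpow_pos_of_pos hc0 _
  have hMr : 0 ≤ M / r := by positivity
  rcases le_total 1 c with h1 | h1
  · have : 1 ≤ c ^ α := Real.one_le_rpow h1 hα0.le
    nlinarith
  set h := c ^ (1 / 3 : ℝ) with hh
  have h0 : 0 < h := Real.rpow_pos_of_pos hc0 _
  have h3 : h ^ 3 = c := by
    rw [hh, ← Real.rpow_natCast, ← Real.rpow_mul hc]; norm_num
  have hle : h ≤ c ^ α := Real.rpow_le_rpow_of_exponent_ge hc0 h1 hα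
  rcases le_total h r with h2 | h2
  · have := H h h0 h2
    rw [← h3] at this
    have h4 : h ^ 2 * D ≤ h ^ 2 * ((A + B) * h) := by linarith
    have h5 := le_of_mul_le_mul_left h4 (pow_pos h0 2)
    have h6 := mul_le_mul_of_nonneg_left hle (add_nonneg hA hB)
    nlinarith
  · have h4 : M ≤ M / r * c ^ α := by
      rw [div_mul_eq_mul_div, le_div_iff₀ hr]
      exact mul_le_mul_of_nonneg_left (h2.trans hle) hM
    nlinarith

theorem admissible_of_le_third (hd0 : 0 < d) {α : ℝ} (hα0 : 0 < α) (hα : α ≤ 1 / 3) :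
    Admissible d α := by
  intro K hKc hconv hi Y hY hYn
  have := isProb_unif hKc hi
  obtain ⟨R₀, hR₀⟩ := hKc.isBounded.exists_norm_le
  obtain ⟨L₀, hL₀⟩ := hY.isBounded.exists_norm_le
  set R := |R₀| + 1 with hRdef
  set L := |L₀| + 1 with hLdef
  have hR : 0 < R := by positivity
  have hL : 0 < L := by positivity
  have hKR : ∀ x ∈ K, ‖x‖ ≤ R := fun x hx => by linarith [hR₀ x hx, le_abs_self R₀]
  have hYL : ∀ y ∈ Y, ‖y‖ ≤ L := fun y hy => by linarith [hL₀ y hy, le_abs_self L₀]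
  obtain ⟨x₀, hx₀⟩ := hi
  obtain ⟨r, hr, hball⟩ := Metric.nhds_basis_closedBall.mem_iff.1 (mem_interior_iff_mem_nhds.1 hx₀)
  have hi : (interior K).Nonempty := ⟨x₀, hx₀⟩
  have hn : K.Nonempty := hi.mono interior_subset
  set C₂ := d * (9 * (416 * R ^ 2)) + d * (16 * L ^ 2 * d / r) + 4 * L ^ 2 / r + 4 * L ^ 2 with hC₂
  have C0 : 0 < C₂ := by positivity
  refine ⟨(C₂ ^ (1 / 2 : ℝ)).toNNReal, fun μ ν _ _ hμ hν T S hT hS => ?_⟩
  have bdd : ∀ {μ : Measure (Euc d)} {T : Euc d → Euc d}, μ Yᶜ = 0 → IsOptimalMap (unif K) μ T →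
      ∀ᵐ x ∂(unif K), ‖T x‖ ≤ L := by
    intro μ T hμ hT
    have h1 : ∀ᵐ y ∂((unif K).map T), y ∈ Y := by rw [hT.2.1]; exact hμ
    exact (ae_of_ae_map hT.1.aemeasurable h1).mono fun x hx => hYL _ hx
  obtain ⟨φ₀, hP₀⟩ := exists_pot hd0 hKc hconv hi hT (bdd hμ hT)
  obtain ⟨φ₁, hP₁⟩ := exists_pot hd0 hKc hconv hi hS (bdd hν hS)
  have mT := hT.1
  have mS := hS.1
  have bTS : ∀ᵐ x ∂(unif K), |‖T x - S x‖ ^ 2| ≤ 4 * L ^ 2 := by
    filter_upwards [hP₀.bdd, hP₁.bdd] with x h1 h2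
    have h4 : ‖T x - S x‖ ≤ 2 * L := (norm_sub_le _ _).trans (by linarith)
    rw [abs_of_nonneg (sq_nonneg _)]
    calc _ ≤ (2 * L) ^ 2 := by gcongr
      _ = _ := by ring
  have iTS : Integrable (fun x => ‖T x - S x‖ ^ 2) (unif K) :=
    integrable_of_ae_bound (by fun_prop) _ bTS
  have hD : ∫ x, ‖T x - S x‖ ^ 2 ∂(unif K) ≤ 4 * L ^ 2 := by
    simpa using (le_abs_self _).trans (abs_setIntegral_le univ bTS)
  have hC0 : (((C₂ ^ (1 / 2 : ℝ)).toNNReal : ℝ≥0) : ℝ≥0∞) =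
      ENNReal.ofReal (C₂ ^ (1 / 2 : ℝ)) := rfl
  have rpow_iInf : ∀ {ι : Sort _} (a : ι → ℝ≥0∞), (⨅ i, a i) ^ α = ⨅ i, a i ^ α := fun a =>
    (ENNReal.orderIsoRpow α hα0).map_iInf a
  have hne : ENNReal.ofReal (C₂ ^ (1 / 2 : ℝ)) ≠ 0 := by
    simpa using Real.rpow_pos_of_pos C0 _
  rw [hC0, W2, iInf_subtype', rpow_iInf, ENNReal.mul_iInf_of_ne hne ENNReal.ofReal_ne_top]
  refine le_iInf fun ⟨γ, hγ⟩ => ?_
  rw [← hT.2.1] at hμ
  rw [← hS.2.1] at hν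
  rw [← hT.2.1, ← hS.2.1] at hγ
  have hdisc := discretizable hR mT mS hY hYn hYL hμ hν hγ
  obtain ⟨κ, hκ⟩ := var_le (logConc_unif hKc hconv hi) hKc hn hconv (ae_mem_unif hKc.measurableSet)
    (unif_ac K) hR hL hKR hP₀ hP₁ hdisc
  set c := ∫ p, ‖p.1 - p.2‖ ^ 2 ∂γ with hc
  have c0 : 0 ≤ c := integral_nonneg fun p => sq_nonneg _
  have main : ∫ x, ‖T x - S x‖ ^ 2 ∂(unif K) ≤ C₂ * c ^ α := by
    refine optimize (by positivity) (by positivity) hr c0 (by positivity) hD hα0 hα fun h h0 h1 => ?_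
    refine (rev_poincare hKc hconv hi hr hball hL.le hP₀ hP₁ κ h0 h1).trans ?_
    have : (d : ℝ) * (9 * ∫ x, (φ₀ x - φ₁ x - κ) ^ 2 ∂(unif K)) ≤ d * (9 * (416 * R ^ 2 * c)) := by
      gcongr
    have e : (d : ℝ) * (16 * L ^ 2 * d * h ^ 3 / r) = d * (16 * L ^ 2 * d / r) * h ^ 3 := by ring
    rw [mul_add, e]
    linarith
  have hcγ : ENNReal.ofReal c ≤ ∫⁻ p, ‖p.1 - p.2‖ₑ ^ 2 ∂γ := by
    rw [hc, integral_eq_lintegral_of_nonneg_ae (Eventually.of_forall fun p => sq_nonneg _)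
      (by fun_prop)]
    refine ENNReal.ofReal_toReal_le.trans (le_of_eq ?_)
    congr 1; funext p
    rw [ENNReal.ofReal_pow (norm_nonneg _), ofReal_norm]
  unfold distL2
  rw [ofReal_integral_sq iTS]
  calc _ ≤ ENNReal.ofReal (C₂ * c ^ α) ^ (1 / 2 : ℝ) := by gcongr
    _ = ENNReal.ofReal (C₂ ^ (1 / 2 : ℝ)) * (ENNReal.ofReal c ^ (1 / 2 : ℝ)) ^ α := by
        rw [ENNReal.ofReal_mul C0.le, ENNReal.mul_rpow_of_nonneg _ _ (by norm_num),
          ENNReal.ofReal_rpow_of_nonneg C0.le (by norm_num),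
          ← ENNReal.ofReal_rpow_of_nonneg c0 hα0.le, ← ENNReal.rpow_mul, ← ENNReal.rpow_mul,
          mul_comm α]
    _ ≤ _ := by gcongr

end Vale.Agent.P074
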