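import Vale.Agent.P074.Cell

/-! Integration of the cell estimate along a line of sites. -/

open MeasureTheory Set
open scoped ENNReal NNReal RealInnerProductSpace

namespace Vale.Agent.P074

variable {d : ℕ}

lemma grid {F G : ℝ → ℝ} (hF : Continuous F) (hG : Continuous G) {S : Set ℝ} (hS : S.Finite)
    {c : ℝ} (H : ∀ t ∉ S, ∃ p q, p ≤ q + c ∧ (∀ h, F t + h * p ≤ F (t + h)) ∧
      ∀ h, G t + h * q ≤ G (t + h)) : F 1 - F 0 ≤ G 1 - G 0 + c := by
  have step : ∀ h, 0 < h → ∀ t, F t + G t ≤ F (t - h) + G (t + h) + h * c := by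
    intro h hh t
    refine Dense.induction (P := fun t => F t + G t ≤ F (t - h) + G (t + h) + h * c)
      (hS.countable.dense_compl ℝ) ?_ ?_ t
    · intro t ht
      obtain ⟨p, q, hpq, h1, h2⟩ := H t ht
      have h3 := h1 (-h)
      have h4 := h2 h
      rw [← sub_eq_add_neg] at h3
      nlinarith
    · exact isClosed_le (by fun_prop) (by fun_prop)
  have sum : ∀ h, 0 < h → ∀ k : ℕ, F (k * h) - F 0 ≤ G ((k + 1) * h) - G h + k * h * c := by
    intro h hh k
    induction k with
    | zero => simp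
    | succ k ih =>
      have := step h hh ((k + 1) * h)
      rw [show ((k : ℝ) + 1) * h - h = k * h by ring,
        show ((k : ℝ) + 1) * h + h = (k + 1 + 1) * h by ring] at this
      push_cast
      linarith
  have lim : Filter.Tendsto (fun n : ℕ => G (1 + 1 / ((n : ℝ) + 1)) - G (1 / ((n : ℝ) + 1)) + c)
      Filter.atTop (nhds (G (1 + 0) - G 0 + c)) := by
    have h0 := tendsto_one_div_add_atTop_nhds_zero_nat (𝕜 := ℝ)
    exact (((hG.tendsto _).comp (h0.const_add 1)).sub ((hG.tendsto _).comp h0)).add_const c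
  rw [add_zero] at lim
  refine ge_of_tendsto' lim fun n => ?_
  have hn : (0 : ℝ) < (n : ℝ) + 1 := by positivity
  have := sum (1 / ((n : ℝ) + 1)) (by positivity) (n + 1)
  push_cast at this
  rw [show ((n : ℝ) + 1) * (1 / ((n : ℝ) + 1)) = 1 by field_simp,
    show ((n : ℝ) + 1 + 1) * (1 / ((n : ℝ) + 1)) = 1 + 1 / ((n : ℝ) + 1) by field_simp] at this
  linarith

/-- The tilted measure `(1 + j) ρ`. -/
noncomputable def tilt (ρ : Measure (Euc d)) (j : Euc d → ℝ) : Measure (Euc d) :=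
  ρ.withDensity fun x => ENNReal.ofReal (1 + j x)

lemma tilt_ac (ρ : Measure (Euc d)) (j : Euc d → ℝ) : tilt ρ j ≪ ρ :=
  withDensity_absolutelyContinuous _ _

lemma setIntegral_tilt {ρ : Measure (Euc d)} {j : Euc d → ℝ} (mj : Measurable j)
    (bj : ∀ᵐ x ∂ρ, |j x| ≤ 1 / 2) {A : Set (Euc d)} (mA : MeasurableSet A) (f : Euc d → ℝ) :
    ∫ x in A, f x ∂(tilt ρ j) = ∫ x in A, (1 + j x) * f x ∂ρ := by
  rw [tilt, setIntegral_withDensity_eq_setIntegral_toReal_smul (by fun_prop) (by simp) _ mA]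
  refine integral_congr_ae ?_
  filter_upwards [ae_restrict_of_ae bj] with x hx
  rw [ENNReal.toReal_ofReal (by linarith [(abs_le.1 hx).1]), smul_eq_mul]

lemma integral_tilt {ρ : Measure (Euc d)} {j : Euc d → ℝ} (mj : Measurable j)
    (bj : ∀ᵐ x ∂ρ, |j x| ≤ 1 / 2) (f : Euc d → ℝ) :
    ∫ x, f x ∂(tilt ρ j) = ∫ x, (1 + j x) * f x ∂ρ := by
  simpa using setIntegral_tilt mj bj MeasurableSet.univ f

lemma isProb_tilt {ρ : Measure (Euc d)} [IsProbabilityMeasure ρ] {j : Euc d → ℝ}
    (mj : Measurable j) (bj : ∀ᵐ x ∂ρ, |j x| ≤ 1 / 2) (j0 : ∫ x, j x ∂ρ = 0) :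
    IsProbabilityMeasure (tilt ρ j) := by
  constructor
  have ij : Integrable j ρ := integrable_of_ae_bound mj _ bj
  rw [tilt, withDensity_apply _ MeasurableSet.univ, Measure.restrict_univ,
    ← ofReal_integral_eq_lintegral_ofReal (f := fun x => 1 + j x) ((integrable_const _).add ij)
      (bj.mono fun x hx => by have := (abs_le.1 hx).1; simp; linarith)]
  rw [integral_add (integrable_const _) ij, j0]
  simp

variable {ι : Type} [Fintype ι] [Nonempty ι]

omit [Nonempty ι] in
lemma finite_bad {y v : ι → Euc d} (h : Function.Injective fun i => (y i, v i)) :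
    {t : ℝ | ¬ Function.Injective fun i => y i + t • v i}.Finite := by
  refine Set.Finite.subset (Set.finite_iUnion fun i => Set.finite_iUnion fun k =>
    Set.Subsingleton.finite (s := {t : ℝ | i ≠ k ∧ y i + t • v i = y k + t • v k}) ?_) ?_
  · rintro t ⟨hik, ht⟩ t' ⟨-, ht'⟩
    by_contra hne
    have h1 : (t - t') • (v i - v k) = 0 := by
      have : (t - t') • (v i - v k) = (y i + t • v i) - (y k + t • v k) -
        ((y i + t' • v i) - (y k + t' • v k)) := by module
      rw [this, ht, ht']; simp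
    have h2 : v i = v k := by
      rcases smul_eq_zero.1 h1 with h | h
      · exact (hne (sub_eq_zero.1 h)).elim
      · exact sub_eq_zero.1 h
    rw [h2, add_left_inj] at ht
    exact hik (h (Prod.ext ht h2))
  · intro t ht
    simp only [mem_ofPred_eq, Function.Injective, not_forall] at ht
    obtain ⟨i, k, h1, h2⟩ := ht
    simp only [mem_iUnion]
    exact ⟨i, k, h2, h1⟩

theorem path_est {ρ : Measure (Euc d)} [IsProbabilityMeasure ρ] {K : Set (Euc d)}
    (hL : LogConc ρ K) (hK : ∀ᵐ x ∂ρ, x ∈ K) (hKc : Convex ℝ K) (hρ : ρ ≪ volume) {R : ℝ}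
    (hR : 0 < R) (hKR : ∀ x ∈ K, ‖x‖ ≤ R) {m : ι → ℝ} (hm : ∀ i, 0 < m i) (hm1 : ∑ i, m i = 1)
    {y v : ι → Euc d} (hyv : Function.Injective fun i => (y i, v i)) {l : ℝ}
    (hl : 0 < l) (hlv : ∀ i, l * ‖v i‖ ≤ R) {j : Euc d → ℝ} (mj : Measurable j)
    (bj : ∀ᵐ x ∂ρ, |j x| ≤ 1 / 2) (j0 : ∫ x, j x ∂ρ = 0) :
    dualF ρ m (fun i => y i + v i) - dualF ρ m y ≤
      dualF (tilt ρ j) m (fun i => y i + v i) - dualF (tilt ρ j) m y +
        (4 * l * ∑ i, m i * ‖v i‖ ^ 2 + 13 * R ^ 2 / l * ∫ x, j x ^ 2 ∂ρ) := by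
  have := isProb_tilt mj bj j0
  have hρR : ∀ᵐ x ∂ρ, ‖x‖ ≤ R := hK.mono hKR
  have hσR : ∀ᵐ x ∂(tilt ρ j), ‖x‖ ≤ R := tilt_ac ρ j hρR
  have hσ : tilt ρ j ≪ volume := (tilt_ac ρ j).trans hρ
  have := grid (continuous_dualF_line hρR hR.le hm hm1 y v)
    (continuous_dualF_line hσR hR.le hm hm1 y v) (finite_bad hyv)
    (c := 4 * l * ∑ i, m i * ‖v i‖ ^ 2 + 13 * R ^ 2 / l * ∫ x, j x ^ 2 ∂ρ) (by
      intro t ht
      simp only [mem_ofPred_eq, not_not] at ht
      set z := fun i => y i + t • v i with hz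
      obtain ⟨c, hc⟩ := exists_cells hρR hρ hm hm1 ht
      obtain ⟨c', hc'⟩ := exists_cells hσR hσ hm hm1 ht
      refine ⟨∑ i, ∫ x in cell z c i, ⟪x, v i⟫ ∂ρ, ∑ i, ∫ x in cell z c' i, ⟪x, v i⟫ ∂(tilt ρ j),
        ?_, fun h => ?_, fun h => ?_⟩
      · have key : ∀ i, l * (∫ x in cell z c i, ⟪x, v i⟫ ∂ρ -
            ∫ x in cell z c' i, ⟪x, v i⟫ ∂(tilt ρ j)) ≤
            2 * ∫ x in cell z (fun i => (c i + c' i) / 2) i, (6 * R ^ 2 - ‖x‖ ^ 2) ∂ρ
            - ∫ x in cell z c i, (6 * R ^ 2 - ‖x‖ ^ 2) ∂ρ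
            - ∫ x in cell z c' i, (6 * R ^ 2 - ‖x‖ ^ 2) ∂ρ
            + 4 * l ^ 2 * (m i * ‖v i‖ ^ 2) + 13 * R ^ 2 * ∫ x in cell z c' i, j x ^ 2 ∂ρ := by
          intro i
          rw [setIntegral_tilt mj bj (measurableSet_cell _ _ _), ← hc i]
          refine cell_est hL hK hKc hR hKR (measurableSet_cell _ _ _) (measurableSet_cell _ _ _)
            (measurableSet_cell _ _ _) ?_ (v i) hl (hlv i) mj bj (by rw [hc i]; exact hm i) ?_
          · intro x hx x' hx' k hk
            have h1 := hx k hk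
            have h2 := hx' k hk
            simp only [inner_add_left, real_inner_smul_left]
            linarith
          · have := setIntegral_tilt mj bj (measurableSet_cell z c' i) (fun _ => 1)
            simp only [integral_const, measureReal_restrict_apply_univ, smul_eq_mul,
              mul_one] at this
            rw [← this, hc', hc]
        have iw : Integrable (fun x : Euc d => 6 * R ^ 2 - ‖x‖ ^ 2) ρ :=
          integrable_of_continuous hρR (by fun_prop)
        have ij2 : Integrable (fun x => j x ^ 2) ρ :=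
          integrable_of_ae_bound (by fun_prop) ((1 / 2) ^ 2)
            (bj.mono fun x hx => by rw [abs_pow]; gcongr)
        have h4 := Finset.sum_le_sum fun i (_ : i ∈ Finset.univ) => key i
        simp only [Finset.sum_add_distrib, Finset.sum_sub_distrib, ← Finset.mul_sum] at h4
        rw [← integral_eq_sum_cell hρ ht _ iw, ← integral_eq_sum_cell hρ ht _ iw,
          ← integral_eq_sum_cell hρ ht _ iw, ← integral_eq_sum_cell hρ ht _ ij2] at h4
        rw [← sub_le_iff_le_add']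
        refine le_of_mul_le_mul_left ?_ hl
        refine h4.trans (le_of_eq ?_)
        field_simp
        ring
      · have := dualF_subgrad hρR hρ hm hm1 ht hc v h
        simpa only [hz, add_smul, add_assoc] using this
      · have := dualF_subgrad hσR hσ hm hm1 ht hc' v h
        simpa only [hz, add_smul, add_assoc] using this)
  simpa using this

end Vale.Agent.P074
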