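import Vale.Agent.P074.Rev

/-! Optimal maps are cyclically monotone and have Lipschitz potentials. -/

open MeasureTheory Set Filter
open scoped ENNReal NNReal RealInnerProductSpace Topology

namespace Vale.Agent.P074

variable {d : ℕ}

/-- Permuting small balls by translations. -/
noncomputable def swapMap {n : ℕ} (z : Fin n → Euc d) (r : ℝ) (σ : Equiv.Perm (Fin n))
    (x : Euc d) : Euc d :=
  x + ∑ i, (Metric.closedBall (z i) r).indicator (fun _ => z (σ i) - z i) x

section
variable {n : ℕ} {z : Fin n → Euc d} {r : ℝ}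

lemma measurable_swapMap (σ : Equiv.Perm (Fin n)) : Measurable (swapMap z r σ) :=
  measurable_id.add (Finset.measurable_sum _ fun _ _ =>
    measurable_const.indicator measurableSet_closedBall)

lemma swapMap_of_mem (hd : Pairwise (Function.onFun Disjoint fun i => Metric.closedBall (z i) r))
    (σ : Equiv.Perm (Fin n)) {i : Fin n} {x : Euc d} (hx : x ∈ Metric.closedBall (z i) r) :
    swapMap z r σ x = x + (z (σ i) - z i) := by
  unfold swapMap
  rw [Finset.sum_eq_single i, indicator_of_mem hx]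
  · intro j _ hj
    exact indicator_of_notMem (Set.disjoint_left.1 (hd hj.symm) hx) _
  · simp

lemma swapMap_of_notMem (σ : Equiv.Perm (Fin n)) {x : Euc d}
    (hx : x ∉ ⋃ i, Metric.closedBall (z i) r) : swapMap z r σ x = x := by
  unfold swapMap
  rw [Finset.sum_eq_zero, add_zero]
  intro i _
  exact indicator_of_notMem (fun h => hx (mem_iUnion.2 ⟨i, h⟩)) _

lemma mem_ball_swap (σ : Equiv.Perm (Fin n)) (i : Fin n) (x : Euc d) :
    x + (z (σ i) - z i) ∈ Metric.closedBall (z (σ i)) r ↔ x ∈ Metric.closedBall (z i) r := by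
  rw [mem_closedBall_iff_norm, mem_closedBall_iff_norm,
    show x + (z (σ i) - z i) - z (σ i) = x - z i by abel]

lemma swapMap_inv (hd : Pairwise (Function.onFun Disjoint fun i => Metric.closedBall (z i) r))
    (σ : Equiv.Perm (Fin n)) (x : Euc d) : swapMap z r σ⁻¹ (swapMap z r σ x) = x := by
  by_cases hx : x ∈ ⋃ i, Metric.closedBall (z i) r
  · obtain ⟨i, hi⟩ := mem_iUnion.1 hx
    rw [swapMap_of_mem hd σ hi, swapMap_of_mem hd σ⁻¹ ((mem_ball_swap σ i x).2 hi)]
    simp [add_assoc]
  · rw [swapMap_of_notMem σ hx, swapMap_of_notMem σ⁻¹ hx]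

lemma measurePreserving_swapMap {K : Set (Euc d)}
    (hd : Pairwise (Function.onFun Disjoint fun i => Metric.closedBall (z i) r))
    (hK : ∀ i, Metric.closedBall (z i) r ⊆ K) (σ : Equiv.Perm (Fin n)) :
    MeasurePreserving (swapMap z r σ) (unif K) (unif K) := by
  refine ⟨measurable_swapMap σ, Measure.ext fun s hs => ?_⟩
  have mU : MeasurableSet (⋃ i, Metric.closedBall (z i) r) :=
    MeasurableSet.iUnion fun i => measurableSet_closedBall
  have dec : ∀ t, MeasurableSet t → unif K t = ∑ i, unif K (t ∩ Metric.closedBall (z i) r) +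
      unif K (t \ ⋃ i, Metric.closedBall (z i) r) := by
    intro t ht
    rw [← measure_inter_add_sdiff t mU, inter_iUnion, measure_iUnion
      (fun i j hij => (hd hij).mono inter_subset_right inter_subset_right)
      (fun i => ht.inter measurableSet_closedBall), tsum_fintype]
  have val : ∀ t i, MeasurableSet t → unif K (t ∩ Metric.closedBall (z i) r) =
      (volume K)⁻¹ * volume (t ∩ Metric.closedBall (z i) r) := by
    intro t i ht
    rw [← Measure.restrict_apply ht, unif_restrict measurableSet_closedBall (hK i),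
      Measure.smul_apply, Measure.restrict_apply ht, smul_eq_mul]
  have ms := hs.preimage (measurable_swapMap (z := z) (r := r) σ)
  rw [Measure.map_apply (measurable_swapMap σ) hs, dec _ ms, dec s hs,
    ← Equiv.sum_comp σ fun i => unif K (s ∩ Metric.closedBall (z i) r)]
  congr 1
  · refine Finset.sum_congr rfl fun i _ => ?_
    rw [val _ _ ms, val _ _ hs, ← measure_preimage_add_right volume (z (σ i) - z i)
      (s ∩ Metric.closedBall (z (σ i)) r)]
    congr 2
    ext x
    simp only [mem_inter_iff, mem_preimage, mem_ball_swap]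
    refine and_congr_left fun hx => ?_
    rw [swapMap_of_mem hd σ hx]
  · congr 1
    ext x
    simp only [Set.mem_sdiff, mem_preimage]
    refine and_congr_left fun hx => ?_
    rw [swapMap_of_notMem σ hx]

lemma ofReal_integral_sq {α : Type*} [MeasurableSpace α] {ρ : Measure α} {f : α → Euc d}
    (hf : Integrable (fun x => ‖f x‖ ^ 2) ρ) :
    ∫⁻ x, ‖f x‖ₑ ^ 2 ∂ρ = ENNReal.ofReal (∫ x, ‖f x‖ ^ 2 ∂ρ) := by
  rw [ofReal_integral_eq_lintegral_ofReal hf (Eventually.of_forall fun x => sq_nonneg _)]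
  congr 1; funext x
  rw [ENNReal.ofReal_pow (norm_nonneg _), ofReal_norm]

lemma swap_ineq {K : Set (Euc d)} (hKc : IsCompact K) (hi : (interior K).Nonempty)
    {μ : Measure (Euc d)} {T : Euc d → Euc d} (hT : IsOptimalMap (unif K) μ T) {L : ℝ}
    (hL : ∀ᵐ x ∂(unif K), ‖T x‖ ≤ L)
    (hd : Pairwise (Function.onFun Disjoint fun i => Metric.closedBall (z i) r))
    (hK : ∀ i, Metric.closedBall (z i) r ⊆ K) (σ : Equiv.Perm (Fin n)) :
    ∑ i, ∫ x in Metric.closedBall (z i) r, ⟪z (σ i) - z i, T x⟫ ≤ 0 := by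
  have := isProb_unif hKc hi
  obtain ⟨R, hKR⟩ := hKc.isBounded.exists_norm_le
  have hρR : ∀ᵐ x ∂(unif K), ‖x‖ ≤ R := (ae_mem_unif hKc.measurableSet).mono hKR
  have P := measurePreserving_swapMap hd hK σ
  have P' := measurePreserving_swapMap hd hK σ⁻¹
  have mT := hT.1
  have mP := P.measurable
  have mP' := P'.measurable
  have h1 := hT.2.2 (T ∘ swapMap z r σ⁻¹) (mT.comp mP')
    (by rw [← Measure.map_map mT mP', P'.map_eq, hT.2.1])
  unfold cost at h1
  rw [← P.lintegral_comp (f := fun x => ‖x - (T ∘ swapMap z r σ⁻¹) x‖ₑ ^ 2) (by fun_prop)] at h1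
  simp only [Function.comp_apply, swapMap_inv hd] at h1
  have hPR : ∀ᵐ x ∂(unif K), ‖swapMap z r σ x‖ ≤ R := P.quasiMeasurePreserving.ae hρR
  have bound : ∀ {u : Euc d → Euc d}, Measurable u → (∀ᵐ x ∂(unif K), ‖u x‖ ≤ R) →
      Integrable (fun x => ‖u x‖ ^ 2) (unif K) ∧ Integrable (fun x => ⟪u x, T x⟫) (unif K) := by
    intro u mu hu
    constructor
    · refine integrable_of_ae_bound (by fun_prop) (R ^ 2) (hu.mono fun x hx => ?_)
      rw [abs_of_nonneg (sq_nonneg _)]; gcongr
    · refine integrable_of_ae_bound (by fun_prop) (R * L) ?_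
      filter_upwards [hu, hL] with x h1 h2
      exact (abs_real_inner_le_norm _ _).trans
        (mul_le_mul h1 h2 (norm_nonneg _) ((norm_nonneg _).trans h1))
  have iT : Integrable (fun x => ‖T x‖ ^ 2) (unif K) :=
    integrable_of_ae_bound (by fun_prop) (L ^ 2) (hL.mono fun x hx => by
      rw [abs_of_nonneg (sq_nonneg _)]; gcongr)
  have expand : ∀ {u : Euc d → Euc d}, Measurable u → (∀ᵐ x ∂(unif K), ‖u x‖ ≤ R) →
      ∫⁻ x, ‖u x - T x‖ₑ ^ 2 ∂(unif K) = ENNReal.ofReal (∫ x, ‖u x - T x‖ ^ 2 ∂(unif K)) ∧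
      ∫ x, ‖u x - T x‖ ^ 2 ∂(unif K) = ∫ x, ‖u x‖ ^ 2 ∂(unif K) - 2 * ∫ x, ⟪u x, T x⟫ ∂(unif K)
        + ∫ x, ‖T x‖ ^ 2 ∂(unif K) := by
    intro u mu hu
    obtain ⟨i1, i2⟩ := bound mu hu
    have i3 : Integrable (fun x => ‖u x‖ ^ 2 - 2 * ⟪u x, T x⟫) (unif K) := i1.sub (i2.const_mul _)
    constructor
    · apply ofReal_integral_sq
      simp only [norm_sub_sq_real]
      exact i3.add iT
    · simp only [norm_sub_sq_real]
      rw [integral_add i3 iT, integral_sub i1 (i2.const_mul _), integral_const_mul]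
  obtain ⟨e1, e2⟩ := expand (u := fun x => x) measurable_id hρR
  obtain ⟨e3, e4⟩ := expand mP hPR
  rw [e1, e3, ENNReal.ofReal_le_ofReal_iff (integral_nonneg fun x => sq_nonneg _), e2, e4] at h1
  have e5 : ∫ x, ‖swapMap z r σ x‖ ^ 2 ∂(unif K) = ∫ x, ‖x‖ ^ 2 ∂(unif K) := by
    conv_rhs => rw [← P.map_eq]
    rw [integral_map mP.aemeasurable (by fun_prop)]
  have iz : ∀ v : Euc d, Integrable (fun x => ⟪v, T x⟫) (unif K) := fun v =>
    integrable_of_ae_bound (by fun_prop) (‖v‖ * L) (hL.mono fun x hx =>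
      (abs_real_inner_le_norm _ _).trans (mul_le_mul_of_nonneg_left hx (norm_nonneg _)))
  have e6 : ∫ x, ⟪swapMap z r σ x, T x⟫ ∂(unif K) = ∫ x, ⟪x, T x⟫ ∂(unif K) +
      ∑ i, ∫ x in Metric.closedBall (z i) r, ⟪z (σ i) - z i, T x⟫ ∂(unif K) := by
    have e : ∀ x, ⟪swapMap z r σ x, T x⟫ = ⟪x, T x⟫ +
        ∑ i, (Metric.closedBall (z i) r).indicator (fun x => ⟪z (σ i) - z i, T x⟫) x := by
      intro x
      rw [swapMap, inner_add_left, sum_inner]
      congr 1
      refine Finset.sum_congr rfl fun i _ => ?_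
      by_cases hx : x ∈ Metric.closedBall (z i) r
      · rw [indicator_of_mem hx, indicator_of_mem hx]
      · rw [indicator_of_notMem hx, indicator_of_notMem hx, inner_zero_left]
    simp only [e]
    rw [integral_add (bound (u := fun x => x) measurable_id hρR).2
      (integrable_finsetSum _ fun i _ => (iz _).indicator measurableSet_closedBall),
      integral_finsetSum _ fun i _ => (iz _).indicator measurableSet_closedBall]
    simp only [integral_indicator measurableSet_closedBall]
  have h2 : ∑ i, ∫ x in Metric.closedBall (z i) r, ⟪z (σ i) - z i, T x⟫ ∂(unif K) ≤ 0 := by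
    linarith
  simp only [unif_restrict measurableSet_closedBall (hK _), integral_smul_measure, smul_eq_mul,
    ← Finset.mul_sum] at h2
  refine nonpos_of_mul_nonpos_right h2 ?_
  exact ENNReal.toReal_pos (ENNReal.inv_ne_zero.2 hKc.measure_lt_top.ne)
    (ENNReal.inv_ne_top.2 (vol_ne_zero hi))

end

theorem cyc_mono (hd0 : 0 < d) {K : Set (Euc d)} (hKc : IsCompact K) (hconv : Convex ℝ K)
    (hi : (interior K).Nonempty) {μ : Measure (Euc d)} {T : Euc d → Euc d}
    (hT : IsOptimalMap (unif K) μ T) {L : ℝ} (hL : ∀ᵐ x ∂(unif K), ‖T x‖ ≤ L) :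
    ∃ G : Set (Euc d), (∀ᵐ x ∂(unif K), x ∈ G) ∧ ∀ (n : ℕ) (x : Fin n → Euc d),
      (∀ i, x i ∈ G) → ∀ σ : Equiv.Perm (Fin n), ∑ i, ⟪x (σ i) - x i, T (x i)⟫ ≤ 0 := by
  have mK := hKc.measurableSet
  have mT := hT.1
  have iK : IntegrableOn T K volume :=
    Measure.integrableOn_of_bounded hKc.measure_lt_top.ne mT.aestronglyMeasurable
      (ae_restrict_of_unif hKc hL)
  set f := K.indicator T with hf
  have i_f : Integrable f volume := (integrable_indicator_iff mK).2 iK
  refine ⟨{x | x ∈ interior K ∧ ∀ (N : ℕ) (w : ℝ → Euc d),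
    (∀ᶠ r in 𝓝[>] (0 : ℝ), x ∈ Metric.closedBall (w r) (N * r)) →
      Tendsto (fun r => ⨍ y in Metric.closedBall (w r) r, ‖f y - f x‖) (𝓝[>] 0) (𝓝 0)}, ?_, ?_⟩
  · have h1 : ∀ᵐ x ∂(unif K), x ∈ interior K := by
      have h0 := unif_ac K (hconv.addHaar_frontier volume)
      filter_upwards [measure_eq_zero_iff_ae_notMem.1 h0, ae_mem_unif mK] with x h1 h2
      by_contra h
      exact h1 ⟨subset_closure h2, h⟩
    have h2 := ae_all_iff.2 fun N : ℕ =>
      IsUnifLocDoublingMeasure.ae_tendsto_average_norm_sub volume i_f.locallyIntegrable (N : ℝ)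
    filter_upwards [h1, unif_ac K h2] with x a b
    exact ⟨a, fun N w hw => b N w id tendsto_id hw⟩
  intro n x hx σ
  let e : Euc d := EuclideanSpace.single ⟨0, hd0⟩ 1
  have he : ‖e‖ = 1 := by simp [e]
  let z : ℝ → Fin n → Euc d := fun r i => x i + (r * (3 * i)) • e
  have hz : ∀ i, Tendsto (fun r => z r i) (𝓝[>] 0) (𝓝 (x i)) := fun i => by
    have : Continuous fun r => z r i := by fun_prop
    simpa [z] using (this.tendsto 0).mono_left (nhdsWithin_le_nhds (s := Ioi 0))
  have ev1 : ∀ᶠ r in 𝓝[>] (0 : ℝ), ∀ i, Metric.closedBall (z r i) r ⊆ K := by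
    rw [eventually_all]
    intro i
    obtain ⟨ε, hε, hb⟩ := Metric.mem_nhds_iff.1 (mem_interior_iff_mem_nhds.1 (hx i).1)
    filter_upwards [(hz i).eventually (Metric.ball_mem_nhds _ (half_pos hε)),
      Ioo_mem_nhdsGT (half_pos hε)] with r h1 h2 y hy
    apply hb
    rw [Metric.mem_ball]
    linarith [dist_triangle y (z r i) (x i), Metric.mem_closedBall.1 hy, h2.2]
  have ev2 : ∀ᶠ r in 𝓝[>] (0 : ℝ),
      Pairwise (Function.onFun Disjoint fun i => Metric.closedBall (z r i) r) := by
    simp only [Pairwise, eventually_all]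
    intro i j hij
    by_cases hx : x i = x j
    · filter_upwards [self_mem_nhdsWithin] with r hr
      refine Metric.closedBall_disjoint_closedBall ?_
      simp only [z, hx]
      rw [dist_add_left, dist_eq_norm, ← sub_smul, norm_smul, he, mul_one, Real.norm_eq_abs,
        ← mul_sub, ← mul_sub, abs_mul, abs_mul, abs_of_pos hr]
      have h1 : (1 : ℝ) ≤ |(i : ℝ) - (j : ℝ)| := by
        have : (1 : ℤ) ≤ |(i : ℤ) - (j : ℤ)| :=
          Int.one_le_abs (sub_ne_zero.2 fun h => hij (Fin.ext (by exact_mod_cast h)))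
        exact_mod_cast this
      have hr' : (0 : ℝ) < r := hr
      rw [abs_of_pos (show (0 : ℝ) < 3 by norm_num)]
      nlinarith
    · have h1 : Tendsto (fun r => dist (z r i) (z r j) - (r + r)) (𝓝[>] 0)
          (𝓝 (dist (x i) (x j) - (0 + 0))) :=
        ((hz i).dist (hz j)).sub ((tendsto_id.add tendsto_id).mono_left nhdsWithin_le_nhds)
      filter_upwards [h1.eventually (lt_mem_nhds (show (0 : ℝ) < _ by simpa using hx))] with r hr
      exact Metric.closedBall_disjoint_closedBall (by linarith)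
  have avg : ∀ i, Tendsto (fun r => ⨍ y in Metric.closedBall (z r i) r, ‖f y - f (x i)‖)
      (𝓝[>] 0) (𝓝 0) := fun i => (hx i).2 (3 * i) (fun r => z r i) (by
    filter_upwards [self_mem_nhdsWithin] with r hr
    have hr' : (0 : ℝ) < r := hr
    rw [mem_closedBall_iff_norm']
    simp only [z, add_sub_cancel_left, norm_smul, he, mul_one, Real.norm_eq_abs]
    rw [abs_of_nonneg (by positivity)]
    push_cast
    linarith)
  have lim : Tendsto (fun r => ∑ i, (⟪z r (σ i) - z r i, T (x i)⟫ - ‖z r (σ i) - z r i‖ *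
      ⨍ y in Metric.closedBall (z r i) r, ‖f y - f (x i)‖)) (𝓝[>] 0)
      (𝓝 (∑ i, (⟪x (σ i) - x i, T (x i)⟫ - ‖x (σ i) - x i‖ * 0))) :=
    tendsto_finsetSum _ fun i _ =>
      (((hz _).sub (hz _)).inner tendsto_const_nhds).sub (((hz _).sub (hz _)).norm.mul (avg i))
  simp only [mul_zero, sub_zero] at lim
  refine le_of_tendsto lim ?_
  filter_upwards [ev1, ev2, self_mem_nhdsWithin] with r h1 h2 hr
  have hr' : (0 : ℝ) < r := hr
  have sw := swap_ineq hKc hi hT hL h2 h1 σ
  set V := volume.real (Metric.closedBall (0 : Euc d) r) with hV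
  have V0 : 0 < V := ENNReal.toReal_pos (Metric.measure_closedBall_pos volume _ hr').ne'
    measure_closedBall_lt_top.ne
  have hVi : ∀ i, volume.real (Metric.closedBall (z r i) r) = V := fun i => by
    rw [hV, measureReal_def, measureReal_def, Measure.addHaar_closedBall_center]
  refine nonpos_of_mul_nonpos_right (le_trans ?_ sw) V0
  rw [Finset.mul_sum]
  refine Finset.sum_le_sum fun i _ => ?_
  have fx : f (x i) = T (x i) := indicator_of_mem (interior_subset (hx i).1) _
  have iB : IntegrableOn T (Metric.closedBall (z r i) r) volume := iK.mono_set (h1 i)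
  have i1 : IntegrableOn (fun y => ‖f y - f (x i)‖) (Metric.closedBall (z r i) r) volume :=
    (i_f.integrableOn.sub (integrableOn_const measure_closedBall_lt_top.ne)).norm
  have h3 : ∫ y in Metric.closedBall (z r i) r, (⟪z r (σ i) - z r i, T (x i)⟫ -
      ‖z r (σ i) - z r i‖ * ‖f y - f (x i)‖) ≤
      ∫ y in Metric.closedBall (z r i) r, ⟪z r (σ i) - z r i, T y⟫ := by
    refine setIntegral_mono_on ((integrableOn_const measure_closedBall_lt_top.ne).sub
      (i1.const_mul _)) (iB.const_inner _) measurableSet_closedBall fun y hy => ?_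
    rw [fx, show f y = T y from indicator_of_mem (h1 i hy) _]
    have := (abs_le.1 (abs_real_inner_le_norm (z r (σ i) - z r i) (T y - T (x i)))).1
    rw [inner_sub_right] at this
    linarith
  have i0 : IntegrableOn (fun _ : Euc d => ⟪z r (σ i) - z r i, T (x i)⟫)
      (Metric.closedBall (z r i) r) volume := integrableOn_const measure_closedBall_lt_top.ne
  rw [integral_sub i0 (i1.const_mul _),
    integral_const_mul] at h3
  simp only [integral_const, measureReal_restrict_apply_univ, smul_eq_mul, hVi] at h3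
  rw [setAverage_eq, hVi, smul_eq_mul]
  refine le_trans (le_of_eq ?_) h3
  field_simp

theorem exists_pot (hd0 : 0 < d) {K : Set (Euc d)} (hKc : IsCompact K) (hconv : Convex ℝ K)
    (hi : (interior K).Nonempty) {μ : Measure (Euc d)} {T : Euc d → Euc d}
    (hT : IsOptimalMap (unif K) μ T) {L : ℝ} (hL : ∀ᵐ x ∂(unif K), ‖T x‖ ≤ L) :
    ∃ φ, IsPot (unif K) L T φ := by
  classical
  have := isProb_unif hKc hi
  obtain ⟨G₀, hG₀, hcyc⟩ := cyc_mono hd0 hKc hconv hi hT hL
  set G := {x | x ∈ G₀ ∧ ‖T x‖ ≤ L} with hG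
  have hGa : ∀ᵐ x ∂(unif K), x ∈ G := hG₀.and hL
  obtain ⟨x₀, hx₀⟩ := hGa.exists
  let val : ℕ → (ℕ → Euc d) → Euc d → ℝ := fun n x z =>
    ∑ i ∈ Finset.range n, ⟪x (i + 1) - x i, T (x i)⟫ + ⟪z - x n, T (x n)⟫
  let S : Euc d → Set ℝ := fun z =>
    {a | ∃ n x, x 0 = x₀ ∧ (∀ i ≤ n, x i ∈ G) ∧ a = val n x z}
  have Sne : ∀ z, (S z).Nonempty := fun z => ⟨_, 0, fun _ => x₀, rfl, fun _ _ => hx₀, rfl⟩
  have vlip : ∀ n x, x n ∈ G → ∀ a b, val n x a ≤ val n x b + L * ‖a - b‖ := by
    intro n x hx a b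
    have h1 := real_inner_le_norm (a - b) (T (x n))
    have h2 := mul_le_mul_of_nonneg_left hx.2 (norm_nonneg (a - b))
    simp only [val, inner_sub_left] at h1 ⊢
    linarith
  have v0 : ∀ n x, x 0 = x₀ → (∀ i ≤ n, x i ∈ G) → val n x x₀ ≤ 0 := by
    intro n x h0 hx
    have := hcyc (n + 1) (fun i => x i) (fun i => (hx i (Nat.lt_succ_iff.1 i.2)).1)
      (finRotate (n + 1))
    rw [Fin.sum_univ_castSucc, finRotate_last] at this
    simp only [finRotate_apply, Fin.coeSucc_eq_succ, Fin.val_succ, Fin.val_castSucc,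
      Fin.val_zero, Fin.val_last, h0] at this
    rwa [Fin.sum_univ_eq_sum_range (fun i => ⟪x (i + 1) - x i, T (x i)⟫) n] at this
  have Sbdd : ∀ z, BddAbove (S z) := fun z => ⟨L * ‖z - x₀‖, by
    rintro _ ⟨n, x, h0, hx, rfl⟩
    linarith [vlip n x (hx n le_rfl) z x₀, v0 n x h0 hx]⟩
  refine ⟨fun z => sSup (S z), hT.1, hL, fun a b => ?_, hGa.mono fun x' hx' z => ?_⟩
  · refine csSup_le (Sne a) ?_
    rintro _ ⟨n, x, h0, hx, rfl⟩
    have : val n x b ≤ sSup (S b) := le_csSup (Sbdd b) ⟨n, x, h0, hx, rfl⟩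
    linarith [vlip n x (hx n le_rfl) a b]
  · rw [← le_sub_iff_add_le]
    refine csSup_le (Sne x') ?_
    rintro _ ⟨n, x, h0, hx, rfl⟩
    rw [le_sub_iff_add_le]
    refine le_csSup (Sbdd z) ⟨n + 1, Function.update x (n + 1) x', ?_, fun i hi => ?_, ?_⟩
    · rw [Function.update_of_ne (by omega), h0]
    · by_cases h : i = n + 1
      · rw [h, Function.update_self]; exact hx'
      · rw [Function.update_of_ne h]; exact hx i (by omega)
    · simp only [val]
      rw [Finset.sum_range_succ, Function.update_self, Function.update_of_ne (by omega)]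
      congr 2
      refine Finset.sum_congr rfl fun i hi => ?_
      have := Finset.mem_range.1 hi
      rw [Function.update_of_ne (by omega), Function.update_of_ne (by omega)]

end Vale.Agent.P074
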