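import Vale.Agent.P074.Var

/-! Reverse Poincare inequality for potentials. -/

open MeasureTheory Set
open scoped ENNReal NNReal RealInnerProductSpace

namespace Vale.Agent.P074

variable {d : ℕ}

lemma unif_restrict {K A : Set (Euc d)} (mA : MeasurableSet A) (hA : A ⊆ K) :
    (unif K).restrict A = (volume K)⁻¹ • volume.restrict A := by
  rw [unif, Measure.restrict_smul, Measure.restrict_restrict mA, inter_eq_left.2 hA]

lemma setIntegral_translate {K A : Set (Euc d)} (mA : MeasurableSet A) (hA : A ⊆ K) (v : Euc d)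
    (hv : ∀ x ∈ A, x + v ∈ K) (f : Euc d → ℝ) :
    ∫ x in A, f (x + v) ∂(unif K) = ∫ x in (fun x => x - v) ⁻¹' A, f x ∂(unif K) := by
  rw [unif_restrict mA hA, unif_restrict (mA.preimage (by fun_prop))
    (fun x hx => by simpa using hv _ hx), integral_smul_measure, integral_smul_measure]
  congr 1
  have := (measurePreserving_add_right (volume : Measure (Euc d)) v).setIntegral_preimage_emb
    (measurableEmbedding_addRight v) f ((fun x => x - v) ⁻¹' A)
  rw [← this]
  congr 2
  ext x; simp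

lemma sq_three {a p q g D : ℝ} (h1 : a ≤ p - g + D) (h2 : -a ≤ q - g + D) :
    a ^ 2 ≤ 3 * (p ^ 2 + q ^ 2 + g ^ 2 + D ^ 2) := by
  rcases le_total 0 a with h | h
  · have : a ^ 2 ≤ (p - g + D) ^ 2 := pow_le_pow_left₀ h h1 2
    nlinarith [sq_nonneg (p + g), sq_nonneg (p - D), sq_nonneg (g + D), sq_nonneg q]
  · have : (-a) ^ 2 ≤ (q - g + D) ^ 2 := pow_le_pow_left₀ (by linarith) h2 2
    nlinarith [sq_nonneg (q + g), sq_nonneg (q - D), sq_nonneg (g + D), sq_nonneg p]

lemma rev_dir {K : Set (Euc d)} (hKc : IsCompact K) (hconv : Convex ℝ K)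
    (hi : (interior K).Nonempty) {x₀ : Euc d} {r : ℝ} (hr : 0 < r)
    (hball : Metric.closedBall x₀ r ⊆ K) {L : ℝ} (hL : 0 ≤ L) {T₀ T₁ : Euc d → Euc d}
    {φ₀ φ₁ : Euc d → ℝ} (hP₀ : IsPot (unif K) L T₀ φ₀) (hP₁ : IsPot (unif K) L T₁ φ₁) (κ : ℝ)
    {e : Euc d} (he : ‖e‖ = 1) {h : ℝ} (h0 : 0 < h) (hhr : h ≤ r) :
    h ^ 2 * ∫ x, ⟪e, T₀ x - T₁ x⟫ ^ 2 ∂(unif K) ≤
      9 * ∫ x, (φ₀ x - φ₁ x - κ) ^ 2 ∂(unif K) + 16 * L ^ 2 * d * h ^ 3 / r := by
  have := isProb_unif hKc hi
  have hK := ae_mem_unif hKc.measurableSet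
  obtain ⟨R, hKR⟩ := hKc.isBounded.exists_norm_le
  have hρR : ∀ᵐ x ∂(unif K), ‖x‖ ≤ R := hK.mono hKR
  have c0 := continuous_of_lip hP₀.lip
  have c1 := continuous_of_lip hP₁.lip
  set δ := h / r with hδ
  have δ0 : 0 < δ := by positivity
  have δ1 : δ ≤ 1 := (div_le_one hr).2 hhr
  have δr : δ * r = h := by rw [hδ]; field_simp
  set A := AffineMap.homothety x₀ (1 - δ) '' K with hA
  have mA : MeasurableSet A := (hKc.image (AffineMap.homothety_continuous _ _)).measurableSet
  have hAv : ∀ v : Euc d, ‖v‖ ≤ 1 → ∀ x ∈ A, x + h • v ∈ K := by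
    rintro v hv _ ⟨k, hk, rfl⟩
    have h1 : x₀ + r • v ∈ K := hball (by
      rw [mem_closedBall_iff_norm, add_sub_cancel_left, norm_smul, Real.norm_eq_abs, abs_of_pos hr]
      exact mul_le_of_le_one_right hr.le hv)
    have := hconv hk h1 (show 0 ≤ 1 - δ by linarith) δ0.le (by ring)
    convert this using 1
    rw [AffineMap.homothety_apply, ← δr, vsub_eq_sub, vadd_eq_add]
    module
  have hAK : A ⊆ K := fun x hx => by simpa using hAv 0 (by simp) x hx
  have volA : (unif K).real A = (1 - δ) ^ d := by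
    rw [measureReal_def, unif, Measure.smul_apply, Measure.restrict_apply mA, inter_eq_left.2 hAK,
      hA, Measure.addHaar_image_homothety, smul_eq_mul, mul_comm, mul_assoc,
      ENNReal.mul_inv_cancel (vol_ne_zero hi) hKc.measure_lt_top.ne, mul_one,
      ENNReal.toReal_ofReal (abs_nonneg _), finrank_euclideanSpace_fin,
      abs_of_nonneg (pow_nonneg (by linarith) _)]
  have bern : 1 - (1 - δ) ^ d ≤ d * δ := by
    have := one_add_mul_le_pow (a := -δ) (by linarith) d
    rw [← sub_eq_add_neg] at this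
    linarith
  set g : Euc d → ℝ := fun x => φ₀ x - φ₁ x - κ with hg
  have cg : Continuous g := by fun_prop
  set G := ∫ x, g x ^ 2 ∂(unif K) with hG
  have ig : ∀ v : Euc d, Integrable (fun x => g (x + v) ^ 2) (unif K) := fun v =>
    integrable_of_continuous hρR (by fun_prop)
  have ig0 : Integrable (fun x => g x ^ 2) (unif K) := integrable_of_continuous hρR (by fun_prop)
  have tr : ∀ v : Euc d, ‖v‖ ≤ 1 → ∫ x in A, g (x + h • v) ^ 2 ∂(unif K) ≤ G := fun v hv => by
    rw [setIntegral_translate mA hAK _ (hAv v hv) fun x => g x ^ 2]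
    exact setIntegral_le_integral ig0 (Filter.Eventually.of_forall fun x => sq_nonneg _)
  set p : Euc d → ℝ := fun x => φ₁ (x + h • e) - φ₁ x + L * h with hp
  have nhe : ‖h • e‖ = h := by rw [norm_smul, he, mul_one, Real.norm_eq_abs, abs_of_pos h0]
  have bp : ∀ x, 0 ≤ p x ∧ p x ≤ 2 * L * h := fun x => by
    have h1 := hP₁.lip (x + h • e) x
    have h2 := hP₁.lip x (x + h • e)
    rw [add_sub_cancel_left, nhe] at h1
    rw [norm_sub_rev, add_sub_cancel_left, nhe] at h2
    simp only [hp]; constructor <;> linarith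
  have ip : ∀ v : Euc d, Integrable (fun x => p (x + v)) (unif K) := fun v =>
    integrable_of_continuous hρR (by fun_prop)
  have ip0 : Integrable p (unif K) := integrable_of_continuous hρR (by fun_prop)
  have hD : ∫ x in A, (p x - p (x + h • (-e))) ∂(unif K) ≤ 2 * L * h * (d * δ) := by
    rw [integral_sub ip0.integrableOn (ip _).integrableOn,
      setIntegral_translate mA hAK _ (hAv (-e) (by simp [he])) p]
    set A' := (fun x => x - h • (-e)) ⁻¹' A with hA'
    have mA' : MeasurableSet A' := mA.preimage (by fun_prop)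
    have v1 : (unif K).real A' = (1 - δ) ^ d := by
      have := setIntegral_translate mA hAK _ (hAv (-e) (by simp [he])) fun _ => 1
      simp only [integral_const, measureReal_restrict_apply_univ, smul_eq_mul, mul_one] at this
      rw [← volA, this]
    have h1 : ∫ x in A, p x ∂(unif K) ≤ ∫ x, p x ∂(unif K) :=
      setIntegral_le_integral ip0 (Filter.Eventually.of_forall fun x => (bp x).1)
    have h2 := integral_add_compl mA' ip0
    have h3 := (le_abs_self _).trans (abs_setIntegral_le (ρ := unif K) A'ᶜ (f := p) (B := 2 * L * h)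
      (Filter.Eventually.of_forall fun x => by rw [abs_of_nonneg (bp x).1]; exact (bp x).2))
    rw [probReal_compl_eq_one_sub mA', v1] at h3
    have h4 := mul_le_mul_of_nonneg_left bern (show 0 ≤ 2 * L * h by positivity)
    linarith
  have ba : ∀ᵐ x ∂(unif K), |⟪e, T₀ x - T₁ x⟫ ^ 2| ≤ 4 * L ^ 2 := by
    filter_upwards [hP₀.bdd, hP₁.bdd] with x h1 h2
    have h3 := abs_real_inner_le_norm e (T₀ x - T₁ x)
    rw [he, one_mul] at h3
    have h4 : |⟪e, T₀ x - T₁ x⟫| ≤ 2 * L := h3.trans ((norm_sub_le _ _).trans (by linarith))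
    rw [abs_pow]
    calc _ ≤ (2 * L) ^ 2 := by gcongr
      _ = _ := by ring
  have mT₀ := hP₀.meas
  have mT₁ := hP₁.meas
  have ia : Integrable (fun x => ⟪e, T₀ x - T₁ x⟫ ^ 2) (unif K) :=
    integrable_of_ae_bound (by fun_prop) _ ba
  have h5 := (le_abs_self _).trans (abs_setIntegral_le Aᶜ ba)
  rw [probReal_compl_eq_one_sub mA, volA] at h5
  have h6 := mul_le_mul_of_nonneg_left bern (show 0 ≤ 4 * L ^ 2 by positivity)
  have h7 : ∫ x in A, h ^ 2 * ⟪e, T₀ x - T₁ x⟫ ^ 2 ∂(unif K) ≤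
      ∫ x in A, (3 * g (x + h • e) ^ 2 + 3 * g (x + h • (-e)) ^ 2 + 3 * g x ^ 2
        + 6 * L * h * (p x - p (x + h • (-e)))) ∂(unif K) := by
    refine integral_mono_ae (ia.const_mul _).integrableOn
      (integrable_of_continuous hρR (by fun_prop)).integrableOn ?_
    filter_upwards [ae_restrict_of_ae hP₀.sub, ae_restrict_of_ae hP₁.sub] with x s0 s1
    have a1 := s0 (x + h • e)
    have a2 := s0 (x + h • (-e))
    have a3 := s1 (x + h • e)
    have a4 := s1 (x + h • (-e))
    simp only [add_sub_cancel_left, real_inner_smul_left, inner_neg_left] at a1 a2 a3 a4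
    have eD : p x - p (x + h • (-e)) = φ₁ (x + h • e) - 2 * φ₁ x + φ₁ (x + h • (-e)) := by
      simp only [hp]
      rw [show x + h • (-e) + h • e = x by module]
      ring
    have D0 : 0 ≤ p x - p (x + h • (-e)) := by rw [eD]; linarith
    have D1 : p x - p (x + h • (-e)) ≤ 2 * L * h := by linarith [(bp x).2, (bp (x + h • (-e))).1]
    have := sq_three (a := h * ⟪e, T₀ x - T₁ x⟫) (p := g (x + h • e)) (q := g (x + h • (-e)))
      (g := g x) (D := p x - p (x + h • (-e)))
      (by rw [eD, inner_sub_right]; simp only [hg]; linarith)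
      (by rw [eD, inner_sub_right]; simp only [hg]; linarith)
    have D2 := mul_le_mul_of_nonneg_left D1 D0
    linarith
  have i1 : Integrable (fun x => 3 * g (x + h • e) ^ 2 + 3 * g (x + h • (-e)) ^ 2) (unif K) :=
    ((ig _).const_mul _).add ((ig _).const_mul _)
  have i2 : Integrable (fun x => 3 * g (x + h • e) ^ 2 + 3 * g (x + h • (-e)) ^ 2 + 3 * g x ^ 2)
    (unif K) := i1.add (ig0.const_mul _)
  have i3 : Integrable (fun x => p x - p (x + h • (-e))) (unif K) := ip0.sub (ip _)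
  rw [integral_add i2.integrableOn (i3.const_mul _).integrableOn,
    integral_add i1.integrableOn (ig0.const_mul _).integrableOn,
    integral_add ((ig _).const_mul _).integrableOn ((ig _).const_mul _).integrableOn,
    integral_const_mul, integral_const_mul, integral_const_mul, integral_const_mul,
    integral_const_mul] at h7
  have t1 := tr e he.le
  have t2 := tr (-e) (by simp [he])
  have t3 : ∫ x in A, g x ^ 2 ∂(unif K) ≤ G :=
    setIntegral_le_integral ig0 (Filter.Eventually.of_forall fun x => sq_nonneg _)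
  have h8 := mul_le_mul_of_nonneg_left hD (show 0 ≤ 6 * L * h by positivity)
  have h9 := mul_le_mul_of_nonneg_left (h5.trans h6) (sq_nonneg h)
  rw [← integral_add_compl mA ia]
  have e1 : 16 * L ^ 2 * d * h ^ 3 / r = 16 * L ^ 2 * d * h ^ 2 * δ := by rw [hδ]; ring
  rw [e1]
  linarith

theorem rev_poincare {K : Set (Euc d)} (hKc : IsCompact K) (hconv : Convex ℝ K)
    (hi : (interior K).Nonempty) {x₀ : Euc d} {r : ℝ} (hr : 0 < r)
    (hball : Metric.closedBall x₀ r ⊆ K) {L : ℝ} (hL : 0 ≤ L) {T₀ T₁ : Euc d → Euc d}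
    {φ₀ φ₁ : Euc d → ℝ} (hP₀ : IsPot (unif K) L T₀ φ₀) (hP₁ : IsPot (unif K) L T₁ φ₁) (κ : ℝ)
    {h : ℝ} (h0 : 0 < h) (hhr : h ≤ r) :
    h ^ 2 * ∫ x, ‖T₀ x - T₁ x‖ ^ 2 ∂(unif K) ≤
      d * (9 * ∫ x, (φ₀ x - φ₁ x - κ) ^ 2 ∂(unif K) + 16 * L ^ 2 * d * h ^ 3 / r) := by
  have := isProb_unif hKc hi
  have e : ∀ x, ‖T₀ x - T₁ x‖ ^ 2 =
      ∑ i, ⟪EuclideanSpace.single i (1 : ℝ), T₀ x - T₁ x⟫ ^ 2 := fun x => by
    rw [EuclideanSpace.real_norm_sq_eq]
    simp [EuclideanSpace.inner_single_left]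
  have mT₀ := hP₀.meas
  have mT₁ := hP₁.meas
  simp only [e]
  rw [integral_finsetSum, Finset.mul_sum]
  · refine (Finset.sum_le_sum fun i _ => rev_dir hKc hconv hi hr hball hL hP₀ hP₁ κ
      (by simp) h0 hhr).trans ?_
    simp only [Finset.sum_const, Finset.card_univ, Fintype.card_fin, nsmul_eq_mul, le_refl]
  · intro i _
    refine integrable_of_ae_bound (by fun_prop) ((2 * L) ^ 2) ?_
    filter_upwards [hP₀.bdd, hP₁.bdd] with x h1 h2
    have h3 := abs_real_inner_le_norm (EuclideanSpace.single i (1 : ℝ)) (T₀ x - T₁ x)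
    simp only [PiLp.norm_single, norm_one, one_mul] at h3
    have h4 := h3.trans ((norm_sub_le _ _).trans (show ‖T₀ x‖ + ‖T₁ x‖ ≤ 2 * L by linarith))
    rw [abs_pow]
    gcongr

end Vale.Agent.P074
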