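import Vale.Agent.P074.LogConc

/-! Semi-discrete transport: Laguerre cells with prescribed masses. -/

open MeasureTheory Set
open scoped ENNReal NNReal RealInnerProductSpace

namespace Vale.Agent.P074

variable {d : ℕ} {ι : Type} [Fintype ι] [Nonempty ι]

/-- Maximum of finitely many affine functions. -/
noncomputable def pw (y : ι → Euc d) (c : ι → ℝ) (x : Euc d) : ℝ :=
  Finset.univ.sup' Finset.univ_nonempty fun i => ⟪x, y i⟫ - c i

/-- Open Laguerre cell. -/
def cell (y : ι → Euc d) (c : ι → ℝ) (i : ι) : Set (Euc d) :=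
  {x | ∀ j, j ≠ i → ⟪x, y j⟫ - c j < ⟪x, y i⟫ - c i}

/-- The semi-discrete dual functional. -/
noncomputable def dualH (σ : Measure (Euc d)) (m : ι → ℝ) (y : ι → Euc d) (c : ι → ℝ) : ℝ :=
  ∫ x, pw y c x ∂σ + ∑ i, m i * c i

/-- The semi-discrete optimal value. -/
noncomputable def dualF (σ : Measure (Euc d)) (m : ι → ℝ) (y : ι → Euc d) : ℝ :=
  ⨅ c : ι → ℝ, dualH σ m y c

lemma le_pw (y : ι → Euc d) (c : ι → ℝ) (x : Euc d) (i : ι) : ⟪x, y i⟫ - c i ≤ pw y c x :=
  Finset.le_sup' (fun i => ⟪x, y i⟫ - c i) (Finset.mem_univ i)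

lemma pw_le {y : ι → Euc d} {c : ι → ℝ} {x : Euc d} {a : ℝ} (h : ∀ i, ⟪x, y i⟫ - c i ≤ a) :
    pw y c x ≤ a := Finset.sup'_le _ _ fun i _ => h i

lemma continuous_pw (y : ι → Euc d) (c : ι → ℝ) : Continuous (pw y c) :=
  Continuous.finset_sup'_apply Finset.univ_nonempty fun i _ => by fun_prop

lemma pw_eq_of_mem {y : ι → Euc d} {c : ι → ℝ} {x : Euc d} {i : ι} (h : x ∈ cell y c i) :
    pw y c x = ⟪x, y i⟫ - c i := by
  refine le_antisymm (pw_le fun j => ?_) (le_pw y c x i)
  by_cases hj : j = i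
  · rw [hj]
  · exact (h j hj).le

omit [Nonempty ι] in
lemma isOpen_cell (y : ι → Euc d) (c : ι → ℝ) (i : ι) : IsOpen (cell y c i) := by
  have : cell y c i = ⋂ j, ⋂ (_ : j ≠ i), {x | ⟪x, y j⟫ - c j < ⟪x, y i⟫ - c i} := by
    ext x; simp [cell]
  rw [this]
  exact isOpen_iInter_of_finite fun j => isOpen_iInter_of_finite fun _ =>
    isOpen_lt (by fun_prop) (by fun_prop)

omit [Nonempty ι] in
lemma measurableSet_cell (y : ι → Euc d) (c : ι → ℝ) (i : ι) : MeasurableSet (cell y c i) :=
  (isOpen_cell y c i).measurableSet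

omit [Fintype ι] [Nonempty ι] in
lemma disjoint_cell (y : ι → Euc d) (c : ι → ℝ) : Pairwise (Function.onFun Disjoint (cell y c)) := by
  intro i j hij
  rw [Function.onFun, Set.disjoint_left]
  intro x hi hj
  exact lt_asymm (hi j hij.symm) (hj i hij)

lemma vol_hyperplane {v : Euc d} (hv : v ≠ 0) (a : ℝ) : volume {x : Euc d | ⟪x, v⟫ = a} = 0 := by
  let S : AffineSubspace ℝ (Euc d) :=
    (AffineSubspace.mk' a (⊥ : Submodule ℝ ℝ)).comap (innerSL ℝ v).toLinearMap.toAffineMap
  have hS : (S : Set (Euc d)) = {x : Euc d | ⟪x, v⟫ = a} := by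
    ext x
    simp [S, AffineSubspace.mem_mk', sub_eq_zero, real_inner_comm]
  rw [← hS]
  refine Measure.addHaar_affineSubspace volume S fun h => ?_
  have h0 : (0 : Euc d) ∈ (S : Set (Euc d)) := by rw [h]; simp
  have h1 : v ∈ (S : Set (Euc d)) := by rw [h]; simp
  rw [hS] at h0 h1
  simp only [mem_ofPred_eq, inner_zero_left] at h0 h1
  exact hv (inner_self_eq_zero.1 (h1.trans h0.symm))

lemma ae_mem_cell {σ : Measure (Euc d)} (hσ : σ ≪ volume) {y : ι → Euc d}
    (hy : Function.Injective y) (c : ι → ℝ) : ∀ᵐ x ∂σ, x ∈ ⋃ i, cell y c i := by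
  have h : ∀ᵐ x ∂σ, ∀ i j, i ≠ j → ⟪x, y i⟫ - c i ≠ ⟪x, y j⟫ - c j := by
    rw [ae_all_iff]; intro i
    rw [ae_all_iff]; intro j
    by_cases hij : i = j
    · simp [hij]
    have h0 := hσ (vol_hyperplane (sub_ne_zero.2 (hy.ne hij)) (c i - c j))
    filter_upwards [measure_eq_zero_iff_ae_notMem.1 h0] with x hx _ h
    apply hx
    simp only [mem_ofPred_eq, inner_sub_right]
    linarith
  filter_upwards [h] with x hx
  obtain ⟨i, -, hi⟩ := Finset.exists_max_image Finset.univ (fun i => ⟪x, y i⟫ - c i)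
    Finset.univ_nonempty
  exact mem_iUnion.2 ⟨i, fun j hj => lt_of_le_of_ne (hi j (Finset.mem_univ _)) (hx j i hj)⟩

lemma integral_eq_sum_cell {σ : Measure (Euc d)} (hσ : σ ≪ volume) {y : ι → Euc d}
    (hy : Function.Injective y) (c : ι → ℝ) {f : Euc d → ℝ} (hf : Integrable f σ) :
    ∫ x, f x ∂σ = ∑ i, ∫ x in cell y c i, f x ∂σ := by
  rw [← integral_iUnion_fintype (measurableSet_cell y c) (disjoint_cell y c)
    fun i => hf.integrableOn, Measure.restrict_eq_self_of_ae_mem (ae_mem_cell hσ hy c)]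

lemma pw_sub_le (y y' : ι → Euc d) (c c' : ι → ℝ) (x : Euc d) {a : ℝ}
    (h : ∀ i, ⟪x, y i - y' i⟫ - (c i - c' i) ≤ a) : pw y c x ≤ pw y' c' x + a :=
  pw_le fun i => by
    have := le_pw y' c' x i
    have := h i
    rw [inner_sub_right] at this
    linarith

section
variable {σ : Measure (Euc d)} [IsProbabilityMeasure σ] {R : ℝ}

lemma integrable_of_continuous (hR : ∀ᵐ x ∂σ, ‖x‖ ≤ R) {f : Euc d → ℝ} (hf : Continuous f) :
    Integrable f σ := by
  obtain ⟨B, hB⟩ := (isCompact_closedBall (0 : Euc d) R).exists_bound_of_continuousOn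
    hf.continuousOn
  exact integrable_of_ae_bound hf.measurable B
    (hR.mono fun x hx => hB x (mem_closedBall_zero_iff.2 hx))

lemma dualH_sub_le (hR : ∀ᵐ x ∂σ, ‖x‖ ≤ R) (m : ι → ℝ) (y y' : ι → Euc d) (c : ι → ℝ) {a : ℝ}
    (h : ∀ i, ‖y i - y' i‖ ≤ a) : dualH σ m y c ≤ dualH σ m y' c + R * a := by
  have : ∫ x, pw y c x ∂σ ≤ ∫ x, (pw y' c x + R * a) ∂σ := by
    refine integral_mono_ae (integrable_of_continuous hR (continuous_pw _ _))
      ((integrable_of_continuous hR (continuous_pw _ _)).add (integrable_const _)) ?_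
    filter_upwards [hR] with x hx
    refine pw_sub_le _ _ _ _ _ fun i => ?_
    have h1 := real_inner_le_norm x (y i - y' i)
    have h2 : ‖x‖ * ‖y i - y' i‖ ≤ R * a :=
      mul_le_mul hx (h i) (norm_nonneg _) ((norm_nonneg _).trans hx)
    linarith
  rw [integral_add (integrable_of_continuous hR (continuous_pw _ _)) (integrable_const _)] at this
  simp only [integral_const, probReal_univ, smul_eq_mul, one_mul] at this
  unfold dualH
  linarith

lemma dualH_lower (hR : ∀ᵐ x ∂σ, ‖x‖ ≤ R) (m : ι → ℝ) (y : ι → Euc d) (c : ι → ℝ) (i : ι) :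
    - (R * ‖y i‖) - c i + ∑ j, m j * c j ≤ dualH σ m y c := by
  have : ∫ _, (- (R * ‖y i‖) - c i) ∂σ ≤ ∫ x, pw y c x ∂σ := by
    refine integral_mono_ae (integrable_const _)
      (integrable_of_continuous hR (continuous_pw _ _)) ?_
    filter_upwards [hR] with x hx
    have h0 := le_pw y c x i
    have h1 := (abs_le.1 (abs_real_inner_le_norm x (y i))).1
    have h2 : ‖x‖ * ‖y i‖ ≤ R * ‖y i‖ := mul_le_mul_of_nonneg_right hx (norm_nonneg _)
    linarith
  simp only [integral_const, probReal_univ, smul_eq_mul, one_mul] at this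
  unfold dualH
  linarith

lemma dualH_bdd (hR : ∀ᵐ x ∂σ, ‖x‖ ≤ R) {m : ι → ℝ} (hm : ∀ i, 0 < m i) (hm1 : ∑ i, m i = 1)
    (y : ι → Euc d) : BddBelow (range (dualH σ m y)) := by
  refine ⟨- (|R| * ∑ i, ‖y i‖), ?_⟩
  rintro _ ⟨c, rfl⟩
  obtain ⟨i, -, hi⟩ := Finset.exists_min_image Finset.univ c Finset.univ_nonempty
  have h1 := dualH_lower hR m y c i
  have h2 : c i ≤ ∑ j, m j * c j := by
    calc c i = ∑ j, m j * c i := by rw [← Finset.sum_mul, hm1, one_mul]
      _ ≤ _ := Finset.sum_le_sum fun j hj => mul_le_mul_of_nonneg_left (hi j hj) (hm j).le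
  have h3 : ‖y i‖ ≤ ∑ j, ‖y j‖ :=
    Finset.single_le_sum (f := fun j => ‖y j‖) (fun j _ => norm_nonneg _) (Finset.mem_univ i)
  have h4 : R * ‖y i‖ ≤ |R| * ∑ j, ‖y j‖ :=
    mul_le_mul (le_abs_self R) h3 (norm_nonneg _) (abs_nonneg _)
  linarith

lemma dualH_shift (hR : ∀ᵐ x ∂σ, ‖x‖ ≤ R) {m : ι → ℝ} (hm1 : ∑ i, m i = 1)
    (y : ι → Euc d) (c : ι → ℝ) (a : ℝ) : dualH σ m y (fun i => c i - a) = dualH σ m y c := by
  have h1 : ∀ x, pw y (fun i => c i - a) x = pw y c x + a := fun x => by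
    apply le_antisymm
    · exact pw_sub_le _ _ _ _ _ fun i => by simp
    · have := pw_sub_le y y c (fun i => c i - a) x (a := -a) fun i => by simp
      linarith
  unfold dualH
  simp only [h1, mul_sub, Finset.sum_sub_distrib, ← Finset.sum_mul, hm1]
  rw [integral_add (integrable_of_continuous hR (continuous_pw _ _)) (integrable_const _)]
  simp only [integral_const, probReal_univ, smul_eq_mul, one_mul]
  ring

lemma continuous_dualH (hR : ∀ᵐ x ∂σ, ‖x‖ ≤ R) (m : ι → ℝ) (y : ι → Euc d) :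
    Continuous (dualH σ m y) := by
  unfold dualH
  refine Continuous.add ?_ (by fun_prop)
  refine (LipschitzWith.of_le_add (f := fun c => ∫ x, pw y c x ∂σ) fun c c' => ?_).continuous
  have : ∫ x, pw y c x ∂σ ≤ ∫ x, (pw y c' x + dist c c') ∂σ := by
    refine integral_mono (integrable_of_continuous hR (continuous_pw _ _))
      ((integrable_of_continuous hR (continuous_pw _ _)).add (integrable_const _)) fun x => ?_
    refine pw_sub_le _ _ _ _ _ fun i => ?_
    have h1 := dist_le_pi_dist c c' i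
    rw [Real.dist_eq] at h1
    have := (abs_le.1 h1).1
    simp only [sub_self, inner_zero_right]
    linarith
  rw [integral_add (integrable_of_continuous hR (continuous_pw _ _)) (integrable_const _)] at this
  simpa using this

lemma exists_min_dualH (hR : ∀ᵐ x ∂σ, ‖x‖ ≤ R) {m : ι → ℝ} (hm : ∀ i, 0 < m i)
    (hm1 : ∑ i, m i = 1) (y : ι → Euc d) : ∃ c, ∀ c', dualH σ m y c ≤ dualH σ m y c' := by
  obtain ⟨i0, -, hi0⟩ := Finset.exists_min_image Finset.univ m Finset.univ_nonempty
  set D := |dualH σ m y 0 + |R| * ∑ i, ‖y i‖| / m i0 with hD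
  have hD0 : 0 ≤ D := div_nonneg (abs_nonneg _) (hm i0).le
  obtain ⟨c, -, hc⟩ := (isCompact_Icc (a := (0 : ι → ℝ)) (b := fun _ => D)).exists_isMinOn
    ⟨0, le_rfl, fun _ => hD0⟩ (continuous_dualH hR m y).continuousOn
  refine ⟨c, fun c' => ?_⟩
  obtain ⟨i, -, hi⟩ := Finset.exists_min_image Finset.univ c' Finset.univ_nonempty
  rw [← dualH_shift hR hm1 y c' (c' i)]
  by_cases h : ∀ j, c' j - c' i ≤ D
  · exact hc ⟨fun j => sub_nonneg.2 (hi j (Finset.mem_univ _)), h⟩
  push Not at h
  obtain ⟨j, hj⟩ := h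
  refine (hc ⟨le_rfl, fun _ => hD0⟩).trans ?_
  refine le_trans ?_ (dualH_lower hR m y _ i)
  have h2 : m j * (c' j - c' i) ≤ ∑ k, m k * (c' k - c' i) :=
    Finset.single_le_sum (f := fun k => m k * (c' k - c' i))
      (fun k hk => mul_nonneg (hm k).le (sub_nonneg.2 (hi k hk))) (Finset.mem_univ j)
  have h3 : ‖y i‖ ≤ ∑ j, ‖y j‖ :=
    Finset.single_le_sum (f := fun j => ‖y j‖) (fun j _ => norm_nonneg _) (Finset.mem_univ i)
  have h4 : R * ‖y i‖ ≤ |R| * ∑ j, ‖y j‖ :=
    mul_le_mul (le_abs_self R) h3 (norm_nonneg _) (abs_nonneg _)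
  have h5 : m i0 * D ≤ m j * (c' j - c' i) :=
    mul_le_mul (hi0 j (Finset.mem_univ _)) hj.le hD0 (hm j).le
  have h6 : m i0 * D = |dualH σ m y 0 + |R| * ∑ i, ‖y i‖| := by
    rw [hD]; field_simp [(hm i0).ne']
  have h7 := le_abs_self (dualH σ m y 0 + |R| * ∑ i, ‖y i‖)
  simp only [sub_self]
  linarith

theorem exists_cells (hR : ∀ᵐ x ∂σ, ‖x‖ ≤ R) (hσ : σ ≪ volume) {m : ι → ℝ} (hm : ∀ i, 0 < m i)
    (hm1 : ∑ i, m i = 1) {y : ι → Euc d} (hy : Function.Injective y) :
    ∃ c, ∀ i, σ.real (cell y c i) = m i := by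
  classical
  obtain ⟨c, hc⟩ := exists_min_dualH hR hm hm1 y
  refine ⟨c, ?_⟩
  have hle : ∀ i, σ.real (cell y c i) ≤ m i := by
    intro i
    let A : ℝ → Set (Euc d) := fun δ => {x | ∀ j, j ≠ i → ⟪x, y j⟫ - c j + δ ≤ ⟪x, y i⟫ - c i}
    have hAm : ∀ δ, MeasurableSet (A δ) := fun δ => by
      have : A δ = ⋂ j, ⋂ (_ : j ≠ i), {x | ⟪x, y j⟫ - c j + δ ≤ ⟪x, y i⟫ - c i} := by
        ext x; simp [A]
      rw [this]
      exact MeasurableSet.iInter fun j => MeasurableSet.iInter fun _ =>
        measurableSet_le (by fun_prop) (by fun_prop)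
    have hA : ∀ δ, 0 < δ → σ.real (A δ) ≤ m i := by
      intro δ hδ
      have h1 := hc (fun j => c j + if j = i then δ else 0)
      have h2 : ∫ x, pw y (fun j => c j + if j = i then δ else 0) x ∂σ ≤
          ∫ x, (pw y c x - (A δ).indicator (fun _ => δ) x) ∂σ := by
        refine integral_mono (integrable_of_continuous hR (continuous_pw _ _))
          ((integrable_of_continuous hR (continuous_pw _ _)).sub
            ((integrable_const _).indicator (hAm δ))) fun x => ?_
        refine pw_le fun j => ?_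
        have h3 := le_pw y c x j
        have h4 := le_pw y c x i
        by_cases hx : x ∈ A δ
        · rw [indicator_of_mem hx]
          by_cases hj : j = i
          · subst hj; simp only [if_true]; linarith
          · have := hx j hj
            simp only [hj, if_false]; linarith
        · rw [indicator_of_notMem hx]
          split_ifs <;> linarith
      rw [integral_sub (integrable_of_continuous hR (continuous_pw _ _))
        ((integrable_const _).indicator (hAm δ)), integral_indicator_const _ (hAm δ)] at h2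
      unfold dualH at h1
      simp only [mul_add, Finset.sum_add_distrib, mul_ite, mul_zero, Finset.sum_ite_eq',
        Finset.mem_univ, if_true] at h1
      rw [smul_eq_mul] at h2
      have : σ.real (A δ) * δ ≤ m i * δ := by linarith
      exact le_of_mul_le_mul_right this hδ
    have hU : cell y c i = ⋃ n : ℕ, A (1 / ((n : ℝ) + 1)) := by
      ext x
      simp only [mem_iUnion]
      constructor
      · intro hx
        have : ∀ᶠ n : ℕ in Filter.atTop, ∀ j, j ≠ i →
            ⟪x, y j⟫ - c j + 1 / ((n : ℝ) + 1) ≤ ⟪x, y i⟫ - c i := by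
          rw [Filter.eventually_all]
          intro j
          by_cases hj : j = i
          · simp [hj]
          have := (tendsto_one_div_add_atTop_nhds_zero_nat (𝕜 := ℝ)).eventually
            (eventually_le_nhds (sub_pos.2 (hx j hj)))
          filter_upwards [this] with n hn _
          linarith
        exact this.exists
      · rintro ⟨n, hn⟩ j hj
        have := hn j hj
        have : (0 : ℝ) < 1 / ((n : ℝ) + 1) := by positivity
        linarith
    have hmono : Monotone fun n : ℕ => A (1 / ((n : ℝ) + 1)) := by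
      intro n k hnk x hx j hj
      have := hx j hj
      have : 1 / ((k : ℝ) + 1) ≤ 1 / ((n : ℝ) + 1) := Nat.one_div_le_one_div hnk
      linarith
    rw [measureReal_def, ← ENNReal.le_ofReal_iff_toReal_le (measure_ne_top _ _) (hm i).le, hU,
      hmono.measure_iUnion]
    refine iSup_le fun n => ?_
    rw [ENNReal.le_ofReal_iff_toReal_le (measure_ne_top _ _) (hm i).le]
    exact hA _ (by positivity)
  have hsum : ∑ i, σ.real (cell y c i) = ∑ i, m i := by
    have := integral_eq_sum_cell hσ hy c (integrable_const (1 : ℝ))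
    simp only [integral_const, probReal_univ, smul_eq_mul, one_mul, mul_one,
      measureReal_restrict_apply_univ] at this
    rw [← this, hm1]
  intro i
  exact (Finset.sum_eq_sum_iff_of_le fun i _ => hle i).1 hsum i (Finset.mem_univ i)

/-- Subgradient inequality for the optimal value along a line of sites. -/
lemma dualF_subgrad (hR : ∀ᵐ x ∂σ, ‖x‖ ≤ R) (hσ : σ ≪ volume) {m : ι → ℝ} (hm : ∀ i, 0 < m i)
    (hm1 : ∑ i, m i = 1) {y : ι → Euc d} (hy : Function.Injective y) {c : ι → ℝ}
    (hc : ∀ i, σ.real (cell y c i) = m i) (v : ι → Euc d) (t : ℝ) :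
    dualF σ m y + t * ∑ i, ∫ x in cell y c i, ⟪x, v i⟫ ∂σ ≤ dualF σ m (fun i => y i + t • v i) := by
  have hint : ∀ u : Euc d, Integrable (fun x => ⟪x, u⟫) σ := fun u =>
    integrable_of_continuous hR (by fun_prop)
  have h1 : dualF σ m y ≤ ∑ i, ∫ x in cell y c i, ⟪x, y i⟫ ∂σ := by
    refine (ciInf_le (dualH_bdd hR hm hm1 y) c).trans_eq ?_
    unfold dualH
    rw [integral_eq_sum_cell hσ hy c (integrable_of_continuous hR (continuous_pw _ _)),
      ← Finset.sum_add_distrib]
    refine Finset.sum_congr rfl fun i _ => ?_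
    rw [setIntegral_congr_fun (measurableSet_cell y c i) (g := fun x => ⟪x, y i⟫ - c i)
      fun x hx => pw_eq_of_mem hx, integral_sub (hint _).integrableOn (integrable_const _)]
    simp [hc i]
  refine le_ciInf fun c' => ?_
  unfold dualH
  rw [integral_eq_sum_cell hσ hy c (integrable_of_continuous hR (continuous_pw _ _))]
  have h2 : ∀ i, ∫ x in cell y c i, ⟪x, y i⟫ ∂σ + t * ∫ x in cell y c i, ⟪x, v i⟫ ∂σ ≤
      ∫ x in cell y c i, pw (fun i => y i + t • v i) c' x ∂σ + m i * c' i := by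
    intro i
    have h3 : ∫ x in cell y c i, (⟪x, y i + t • v i⟫ - c' i) ∂σ ≤
        ∫ x in cell y c i, pw (fun i => y i + t • v i) c' x ∂σ :=
      integral_mono ((hint _).sub (integrable_const _)).integrableOn
        (integrable_of_continuous hR (continuous_pw _ _)).integrableOn
        fun x => le_pw (fun i => y i + t • v i) c' x i
    rw [integral_sub (hint _).integrableOn (integrable_const _)] at h3
    simp only [inner_add_right, inner_smul_right] at h3
    rw [integral_add (hint _).integrableOn ((hint _).const_mul _).integrableOn,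
      integral_const_mul] at h3
    simp only [integral_const, measureReal_restrict_apply_univ, hc i, smul_eq_mul] at h3
    linarith
  have h4 := Finset.sum_le_sum fun i (_ : i ∈ Finset.univ) => h2 i
  rw [Finset.sum_add_distrib, Finset.sum_add_distrib, ← Finset.mul_sum] at h4
  linarith

lemma dualF_sub_le (hR : ∀ᵐ x ∂σ, ‖x‖ ≤ R) {m : ι → ℝ} (hm : ∀ i, 0 < m i)
    (hm1 : ∑ i, m i = 1) (y y' : ι → Euc d) {a : ℝ} (h : ∀ i, ‖y i - y' i‖ ≤ a) :
    dualF σ m y ≤ dualF σ m y' + R * a := by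
  rw [← sub_le_iff_le_add]
  refine le_ciInf fun c => ?_
  have := dualH_sub_le hR m y y' c h
  have h2 : dualF σ m y ≤ dualH σ m y c := ciInf_le (dualH_bdd hR hm hm1 y) c
  linarith

lemma continuous_dualF_line (hR : ∀ᵐ x ∂σ, ‖x‖ ≤ R) (hR0 : 0 ≤ R) {m : ι → ℝ}
    (hm : ∀ i, 0 < m i) (hm1 : ∑ i, m i = 1) (y v : ι → Euc d) :
    Continuous fun t : ℝ => dualF σ m (fun i => y i + t • v i) := by
  refine (LipschitzWith.of_le_add_mul' (R * ‖v‖) fun t t' => ?_).continuous
  have := dualF_sub_le hR hm hm1 (fun i => y i + t • v i) (fun i => y i + t' • v i)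
    (a := ‖v‖ * dist t t') fun i => by
      rw [add_sub_add_left_eq_sub, ← sub_smul, norm_smul, mul_comm, dist_eq_norm]
      exact mul_le_mul_of_nonneg_right (norm_le_pi_norm v i) (norm_nonneg _)
  linarith

end

end Vale.Agent.P074
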