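import Vale.Agent.P074.Path

/-! Lipschitz stability of the potentials. -/

open MeasureTheory Set
open scoped ENNReal NNReal RealInnerProductSpace

namespace Vale.Agent.P074

variable {d : ℕ}

/-- Convex conjugate relative to `K`. -/
noncomputable def conj (K : Set (Euc d)) (φ : Euc d → ℝ) (y : Euc d) : ℝ :=
  sSup ((fun x => ⟪x, y⟫ - φ x) '' K)

lemma le_conj {K : Set (Euc d)} (hK : IsCompact K) {φ : Euc d → ℝ} (hφ : Continuous φ)
    (y : Euc d) {x : Euc d} (hx : x ∈ K) : ⟪x, y⟫ - φ x ≤ conj K φ y :=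
  le_csSup (hK.image (by fun_prop)).bddAbove ⟨x, hx, rfl⟩

lemma conj_le {K : Set (Euc d)} (hK : K.Nonempty) {φ : Euc d → ℝ} {y : Euc d} {a : ℝ}
    (h : ∀ x ∈ K, ⟪x, y⟫ - φ x ≤ a) : conj K φ y ≤ a :=
  csSup_le (hK.image _) (by rintro _ ⟨x, hx, rfl⟩; exact h x hx)

lemma conj_lip {K : Set (Euc d)} (hK : IsCompact K) (hn : K.Nonempty) {φ : Euc d → ℝ}
    (hφ : Continuous φ) {R : ℝ} (hKR : ∀ x ∈ K, ‖x‖ ≤ R) (y y' : Euc d) :
    conj K φ y ≤ conj K φ y' + R * ‖y - y'‖ :=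
  conj_le hn fun x hx => by
    have h1 := le_conj hK hφ y' hx
    have h2 := real_inner_le_norm x (y - y')
    have h3 : ‖x‖ * ‖y - y'‖ ≤ R * ‖y - y'‖ := mul_le_mul_of_nonneg_right (hKR x hx) (norm_nonneg _)
    rw [inner_sub_right] at h2
    linarith

lemma continuous_of_lip {φ : Euc d → ℝ} {L : ℝ} (h : ∀ a b, φ a ≤ φ b + L * ‖a - b‖) :
    Continuous φ :=
  (LipschitzWith.of_le_add_mul' L fun a b => by rw [dist_eq_norm]; exact h a b).continuous

lemma integrable_comp {ρ : Measure (Euc d)} [IsFiniteMeasure ρ] {R L : ℝ} {T : Euc d → Euc d}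
    (mT : Measurable T) (hR : ∀ᵐ x ∂ρ, ‖x‖ ≤ R) (hT : ∀ᵐ x ∂ρ, ‖T x‖ ≤ L)
    {f : Euc d × Euc d → ℝ} (hf : Continuous f) :
    ∃ B, (∀ᵐ x ∂ρ, |f (x, T x)| ≤ B) ∧ Integrable (fun x => f (x, T x)) ρ := by
  obtain ⟨B, hB⟩ := ((isCompact_closedBall (0 : Euc d) R).prod
    (isCompact_closedBall (0 : Euc d) L)).exists_bound_of_continuousOn hf.continuousOn
  have : ∀ᵐ x ∂ρ, |f (x, T x)| ≤ B := by
    filter_upwards [hR, hT] with x h1 h2
    exact hB _ ⟨mem_closedBall_zero_iff.2 h1, mem_closedBall_zero_iff.2 h2⟩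
  exact ⟨B, this, integrable_of_ae_bound (hf.measurable.comp (by fun_prop)) B this⟩

/-- `φ` is an `L`-Lipschitz potential of the map `T`. -/
structure IsPot (ρ : Measure (Euc d)) (L : ℝ) (T : Euc d → Euc d) (φ : Euc d → ℝ) : Prop where
  meas : Measurable T
  bdd : ∀ᵐ x ∂ρ, ‖T x‖ ≤ L
  lip : ∀ a b, φ a ≤ φ b + L * ‖a - b‖
  sub : ∀ᵐ x ∂ρ, ∀ z, φ x + ⟪z - x, T x⟫ ≤ φ z

variable {ι : Type} [Fintype ι] [Nonempty ι]

/-- The discrete measure with masses `m` and sites `y` approximates the law of `T`. -/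
def Approx (ρ : Measure (Euc d)) (R : ℝ) (T : Euc d → Euc d) (m : ι → ℝ) (y : ι → Euc d)
    (η : ℝ) : Prop :=
  ∀ ψ : Euc d → ℝ, (∀ a b, ψ a ≤ ψ b + R * ‖a - b‖) →
    |∑ i, m i * ψ (y i) - ∫ x, ψ (T x) ∂ρ| ≤ η

section
variable {ρ : Measure (Euc d)} [IsProbabilityMeasure ρ] {K : Set (Euc d)} {R L : ℝ}
  {T : Euc d → Euc d} {φ : Euc d → ℝ} {m : ι → ℝ} {y : ι → Euc d} {η : ℝ}

lemma dualF_upper (hKc : IsCompact K) (hn : K.Nonempty) (hK : ∀ᵐ x ∂ρ, x ∈ K)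
    (hKR : ∀ x ∈ K, ‖x‖ ≤ R) (hP : IsPot ρ L T φ) (hm : ∀ i, 0 < m i) (hm1 : ∑ i, m i = 1)
    (hA : Approx ρ R T m y η) {σ : Measure (Euc d)} [IsProbabilityMeasure σ]
    (hσ : ∀ᵐ x ∂σ, x ∈ K) :
    dualF σ m y ≤ ∫ x, φ x ∂σ - ∫ x, φ x ∂ρ + ∫ x, ⟪x, T x⟫ ∂ρ + η := by
  have hφ := continuous_of_lip hP.lip
  have hσR : ∀ᵐ x ∂σ, ‖x‖ ≤ R := hσ.mono hKR
  have hρR : ∀ᵐ x ∂ρ, ‖x‖ ≤ R := hK.mono hKR
  have hψ := conj_lip hKc hn hφ hKR
  refine (ciInf_le (dualH_bdd hσR hm hm1 y) fun i => conj K φ (y i)).trans ?_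
  have h1 : ∫ x, pw y (fun i => conj K φ (y i)) x ∂σ ≤ ∫ x, φ x ∂σ := by
    refine integral_mono_ae (integrable_of_continuous hσR (continuous_pw _ _))
      (integrable_of_continuous hσR hφ) ?_
    filter_upwards [hσ] with x hx
    exact pw_le fun i => by linarith [le_conj hKc hφ (y i) hx]
  have h2 := (abs_le.1 (hA _ hψ)).2
  obtain ⟨-, -, i1⟩ := integrable_comp hP.meas hρR hP.bdd (f := fun p => conj K φ p.2)
    ((continuous_of_lip hψ).comp continuous_snd)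
  obtain ⟨-, -, i2⟩ := integrable_comp hP.meas hρR hP.bdd (f := fun p => ⟪p.1, p.2⟫) (by fun_prop)
  have h3 : ∫ x, conj K φ (T x) ∂ρ ≤ ∫ x, (⟪x, T x⟫ - φ x) ∂ρ := by
    refine integral_mono_ae i1 (i2.sub (integrable_of_continuous hρR hφ)) ?_
    filter_upwards [hP.sub] with x hx
    refine conj_le hn fun z _ => ?_
    have := hx z
    rw [inner_sub_left] at this
    linarith
  rw [integral_sub i2 (integrable_of_continuous hρR hφ)] at h3
  unfold dualH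
  linarith

lemma dualH_lower_gap (hKc : IsCompact K) (hn : K.Nonempty) (hK : ∀ᵐ x ∂ρ, x ∈ K)
    (hKR : ∀ x ∈ K, ‖x‖ ≤ R) (hP : IsPot ρ L T φ) (hm : ∀ i, 0 < m i)
    (hA : Approx ρ R T m y η) (σ : Measure (Euc d)) (c : ι → ℝ) :
    ∫ x, pw y c x ∂σ - ∫ x, pw y c x ∂ρ
      + ∫ x, (pw y c x + conj K (pw y c) (T x) - ⟪x, T x⟫) ∂ρ + ∫ x, ⟪x, T x⟫ ∂ρ - η ≤
      dualH σ m y c := by
  have hρR : ∀ᵐ x ∂ρ, ‖x‖ ≤ R := hK.mono hKR
  have hφ := continuous_pw y c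
  have hψ := conj_lip hKc hn hφ hKR
  have h2 := (abs_le.1 (hA _ hψ)).1
  obtain ⟨-, -, i1⟩ := integrable_comp hP.meas hρR hP.bdd (f := fun p => conj K (pw y c) p.2)
    ((continuous_of_lip hψ).comp continuous_snd)
  obtain ⟨-, -, i2⟩ := integrable_comp hP.meas hρR hP.bdd (f := fun p => ⟪p.1, p.2⟫) (by fun_prop)
  have i3 : Integrable (fun x => pw y c x + conj K (pw y c) (T x)) ρ :=
    (integrable_of_continuous hρR hφ).add i1
  rw [integral_sub i3 i2, integral_add (integrable_of_continuous hρR hφ) i1]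
  have h3 : ∑ i, m i * conj K (pw y c) (y i) ≤ ∑ i, m i * c i :=
    Finset.sum_le_sum fun i _ => mul_le_mul_of_nonneg_left
      (conj_le hn fun x _ => by linarith [le_pw y c x i]) (hm i).le
  unfold dualH
  linarith

lemma dualF_lower (hKc : IsCompact K) (hn : K.Nonempty) (hK : ∀ᵐ x ∂ρ, x ∈ K)
    (hKR : ∀ x ∈ K, ‖x‖ ≤ R) (hP : IsPot ρ L T φ) (hm : ∀ i, 0 < m i)
    (hA : Approx ρ R T m y η) : ∫ x, ⟪x, T x⟫ ∂ρ - η ≤ dualF ρ m y := by
  refine le_ciInf fun c => le_trans ?_ (dualH_lower_gap hKc hn hK hKR hP hm hA ρ c)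
  have : 0 ≤ ∫ x, (pw y c x + conj K (pw y c) (T x) - ⟪x, T x⟫) ∂ρ := by
    refine integral_nonneg_of_ae ?_
    filter_upwards [hK] with x hx
    have := le_conj hKc (continuous_pw y c) (T x) hx
    simp only [Pi.zero_apply]
    linarith
  linarith

lemma osc_of_lip (hKR : ∀ x ∈ K, ‖x‖ ≤ R) (hL : 0 ≤ L) {u : Euc d → ℝ}
    (hu : ∀ a b, u a ≤ u b + L * ‖a - b‖) {x z : Euc d} (hx : x ∈ K) (hz : z ∈ K) :
    |u x - u z| ≤ 2 * R * L := by
  have h1 := hu x z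
  have h2 := hu z x
  have h3 : ‖x - z‖ ≤ 2 * R := (norm_sub_le _ _).trans (by linarith [hKR x hx, hKR z hz])
  rw [norm_sub_rev] at h2
  have h4 := mul_le_mul_of_nonneg_left h3 hL
  rw [abs_le]; constructor <;> linarith

lemma pw_lip (hy : ∀ i, ‖y i‖ ≤ L) (c : ι → ℝ) (a b : Euc d) :
    pw y c a ≤ pw y c b + L * ‖a - b‖ :=
  pw_le fun i => by
    have h1 := le_pw y c b i
    have h2 := real_inner_le_norm (a - b) (y i)
    have h3 : ‖a - b‖ * ‖y i‖ ≤ ‖a - b‖ * L := mul_le_mul_of_nonneg_left (hy i) (norm_nonneg _)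
    rw [inner_sub_left] at h2
    linarith

lemma dualF_lower_tilt (hLC : LogConc ρ K) (hKc : IsCompact K) (hn : K.Nonempty)
    (hK : ∀ᵐ x ∂ρ, x ∈ K) (hR : 0 < R) (hL : 0 < L)
    (hKR : ∀ x ∈ K, ‖x‖ ≤ R) (hP : IsPot ρ L T φ) (hm : ∀ i, 0 < m i) (hy : ∀ i, ‖y i‖ ≤ L)
    (hA : Approx ρ R T m y η) {j : Euc d → ℝ} (mj : Measurable j)
    (bj : ∀ᵐ x ∂ρ, |j x| ≤ 1 / 2) (j0 : ∫ x, j x ∂ρ = 0) :
    ∫ x, j x * φ x ∂ρ - 16 * R * L * ∫ x, j x ^ 2 ∂ρ + ∫ x, ⟪x, T x⟫ ∂ρ - η ≤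
      dualF (tilt ρ j) m y := by
  refine le_ciInf fun c => le_trans ?_ (dualH_lower_gap hKc hn hK hKR hP hm hA _ c)
  have hρR : ∀ᵐ x ∂ρ, ‖x‖ ≤ R := hK.mono hKR
  have hφ := continuous_of_lip hP.lip
  have hp := continuous_pw y c
  have hψ := continuous_of_lip (conj_lip hKc hn hp hKR)
  obtain ⟨x₀, hx₀⟩ := hn
  obtain ⟨B, hB, -⟩ := integrable_comp hP.meas hρR hP.bdd
    (f := fun p => pw y c p.1 + conj K (pw y c) p.2 - ⟪p.1, p.2⟫) (by fun_prop)
  have mT := hP.meas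
  obtain ⟨κ, hκ⟩ := strong_convex hLC hK hφ.measurable hp.measurable
    (r := fun x => pw y c x + conj K (pw y c) (T x) - ⟪x, T x⟫)
    ((hp.measurable.add (hψ.measurable.comp mT)).sub (by fun_prop))
    (M := 2 * R * L) (by positivity) (x₀ := x₀)
    (fun x hx => osc_of_lip hKR hL.le hP.lip hx hx₀)
    (fun x hx => osc_of_lip hKR hL.le (pw_lip hy c) hx hx₀) (B := B)
    (by
      filter_upwards [hK, hB] with x hx h1
      exact ⟨by linarith [le_conj hKc hp (T x) hx], (abs_le.1 h1).2⟩)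
    (by
      filter_upwards [hP.sub] with z hz x hx x' hx' s t hs ht hst hxz
      have h1 := mul_le_mul_of_nonneg_left (hz x) hs.le
      have h2 := mul_le_mul_of_nonneg_left (le_conj hKc hp (T z) hx') ht.le
      have h3 : s * ⟪x, T z⟫ + t * ⟪x', T z⟫ = ⟪z, T z⟫ := by
        conv_rhs => rw [← hxz]
        rw [hxz, ← real_inner_smul_left, ← real_inner_smul_left, ← inner_add_left, hxz]
      rw [inner_sub_left] at h1
      have h4 : s * ⟪z, T z⟫ + t * ⟪z, T z⟫ = ⟪z, T z⟫ := by rw [← add_mul, hst, one_mul]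
      linarith)
  have ij : Integrable j ρ := integrable_of_ae_bound mj _ bj
  have ij2 : Integrable (fun x => j x ^ 2) ρ := integrable_of_ae_bound (by fun_prop) ((1 / 2) ^ 2)
    (bj.mono fun x hx => by rw [abs_pow]; gcongr)
  have iju : ∀ u : Euc d → ℝ, Continuous u → Integrable (fun x => j x * u x) ρ := fun u hu =>
    (integrable_of_continuous hρR hu).bdd_mul mj.aestronglyMeasurable bj
  rw [integral_tilt mj bj]
  simp only [add_mul, one_mul]
  rw [integral_add (integrable_of_continuous hρR hp) (iju _ hp)]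
  have hM : 0 < 64 * R * L := by positivity
  have i0 : Integrable (fun x => (pw y c x - φ x - κ) ^ 2) ρ :=
    integrable_of_continuous hρR (by fun_prop)
  have h5 : ∫ x, (j x * φ x + κ * j x - 16 * R * L * j x ^ 2 - (pw y c x - φ x - κ) ^ 2 /
      (64 * R * L)) ∂ρ ≤ ∫ x, j x * pw y c x ∂ρ := by
    refine integral_mono ((((iju _ hφ).add (ij.const_mul _)).sub (ij2.const_mul _)).sub
      (i0.div_const _)) (iju _ hp) fun x => ?_
    have : 0 ≤ (pw y c x - φ x - κ + 32 * R * L * j x) ^ 2 / (64 * R * L) := by positivity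
    have e : (pw y c x - φ x - κ + 32 * R * L * j x) ^ 2 / (64 * R * L) =
        (pw y c x - φ x - κ) ^ 2 / (64 * R * L) + j x * (pw y c x - φ x - κ)
          + 16 * R * L * j x ^ 2 := by field_simp; ring
    simp only
    linarith
  have i1 : Integrable (fun x => j x * φ x + κ * j x) ρ := (iju _ hφ).add (ij.const_mul _)
  have i2 : Integrable (fun x => j x * φ x + κ * j x - 16 * R * L * j x ^ 2) ρ :=
    i1.sub (ij2.const_mul _)
  rw [integral_sub i2 (i0.div_const _), integral_sub i1 (ij2.const_mul _),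
    integral_add (iju _ hφ) (ij.const_mul _), integral_const_mul, integral_const_mul, j0,
    integral_div] at h5
  have h6 : (∫ x, (pw y c x - φ x - κ) ^ 2 ∂ρ) / (64 * R * L) ≤
      ∫ x, (pw y c x + conj K (pw y c) (T x) - ⟪x, T x⟫) ∂ρ := by
    rw [div_le_iff₀ hM]; linarith
  linarith

end

/-- Discretizations of a coupling of the laws of `T₀` and `T₁` with cost at most `W`. -/
def Discretizable (ρ : Measure (Euc d)) (R L : ℝ) (T₀ T₁ : Euc d → Euc d) (W : ℝ) : Prop :=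
  ∀ η : ℝ, 0 < η → ∃ (ι : Type) (_ : Fintype ι) (_ : Nonempty ι) (m : ι → ℝ) (y₀ y₁ : ι → Euc d),
    (∀ i, 0 < m i) ∧ ∑ i, m i = 1 ∧ (Function.Injective fun i => (y₀ i, y₁ i)) ∧
    (∀ i, ‖y₀ i‖ ≤ L) ∧ (∀ i, ‖y₁ i‖ ≤ L) ∧ Approx ρ R T₀ m y₀ η ∧ Approx ρ R T₁ m y₁ η ∧
    ∑ i, m i * ‖y₁ i - y₀ i‖ ^ 2 ≤ W + η

theorem var_le {ρ : Measure (Euc d)} [IsProbabilityMeasure ρ] {K : Set (Euc d)} {R L W : ℝ}
    (hLC : LogConc ρ K) (hKc : IsCompact K) (hn : K.Nonempty) (hconv : Convex ℝ K)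
    (hK : ∀ᵐ x ∂ρ, x ∈ K) (hρ : ρ ≪ volume) (hR : 0 < R) (hL : 0 < L) (hKR : ∀ x ∈ K, ‖x‖ ≤ R)
    {T₀ T₁ : Euc d → Euc d} {φ₀ φ₁ : Euc d → ℝ} (hP₀ : IsPot ρ L T₀ φ₀) (hP₁ : IsPot ρ L T₁ φ₁)
    (hD : Discretizable ρ R L T₀ T₁ W) :
    ∃ κ : ℝ, ∫ x, (φ₀ x - φ₁ x - κ) ^ 2 ∂ρ ≤ 416 * R ^ 2 * W := by
  have hρR : ∀ᵐ x ∂ρ, ‖x‖ ≤ R := hK.mono hKR
  have c0 := continuous_of_lip hP₀.lip
  have c1 := continuous_of_lip hP₁.lip
  have i0 := integrable_of_continuous hρR c0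
  have i1 := integrable_of_continuous hρR c1
  set κ := ∫ x, (φ₀ x - φ₁ x) ∂ρ with hκ
  refine ⟨κ, ?_⟩
  set g : Euc d → ℝ := fun x => φ₀ x - φ₁ x - κ with hg
  have cg : Continuous g := by fun_prop
  have i01 : Integrable (fun x => φ₀ x - φ₁ x) ρ := i0.sub i1
  have g0 : ∫ x, g x ∂ρ = 0 := by
    simp only [hg]
    rw [integral_sub i01 (integrable_const _)]
    simp [hκ]
  have bg : ∀ x ∈ K, |g x| ≤ 4 * R * L := by
    intro x hx
    have h1 : |∫ z, ((φ₀ x - φ₁ x) - (φ₀ z - φ₁ z)) ∂ρ| ≤ 4 * R * L := by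
      have := abs_setIntegral_le (ρ := ρ) univ
        (f := fun z => (φ₀ x - φ₁ x) - (φ₀ z - φ₁ z)) (B := 4 * R * L) (hK.mono fun z hz => by
          have := abs_le.1 (osc_of_lip hKR hL.le hP₀.lip hx hz)
          have := abs_le.1 (osc_of_lip hKR hL.le hP₁.lip hx hz)
          rw [abs_le]; constructor <;> linarith)
      simpa using this
    rw [integral_sub (integrable_const _) i01] at h1
    simpa [hg, hκ] using h1
  set G := ∫ x, g x ^ 2 ∂ρ with hG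
  set ε := 1 / (64 * R * L) with hε
  have ε0 : 0 < ε := by positivity
  have ε1 : ε * (64 * R * L) = 1 := by rw [hε]; field_simp
  have mj : Measurable fun x => ε * g x := by fun_prop
  have bj : ∀ᵐ x ∂ρ, |ε * g x| ≤ 1 / 2 := hK.mono fun x hx => by
    rw [abs_mul, abs_of_pos ε0]
    linarith only [mul_le_mul_of_nonneg_left (bg x hx) ε0.le, ε1]
  have j0 : ∫ x, ε * g x ∂ρ = 0 := by rw [integral_const_mul, g0, mul_zero]
  have j2 : ∫ x, (ε * g x) ^ 2 ∂ρ = ε ^ 2 * G := by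
    simp only [mul_pow]; rw [integral_const_mul]
  have := isProb_tilt mj bj j0
  have igu : ∀ u : Euc d → ℝ, Continuous u → Integrable (fun x => ε * g x * u x) ρ := fun u hu =>
    integrable_of_continuous hρR (by fun_prop)
  have jφ : ∫ x, ε * g x * φ₀ x ∂ρ - ∫ x, ε * g x * φ₁ x ∂ρ = ε * G := by
    rw [← integral_sub (igu _ c0) (igu _ c1)]
    have e : ∀ x, ε * g x * φ₀ x - ε * g x * φ₁ x = ε * g x ^ 2 + κ * (ε * g x) := fun x => by
      simp only [hg]; ring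
    simp only [e]
    rw [integral_add (integrable_of_continuous hρR (by fun_prop))
      (integrable_of_continuous hρR (by fun_prop)), integral_const_mul, integral_const_mul, j0]
    simp [hG]
  have key : ∀ η : ℝ, 0 < η → G ≤ 416 * R ^ 2 * W + (16 / ε + 416 * R ^ 2) * η := by
    intro η hη
    obtain ⟨ι, _, _, m, y₀, y₁, hm, hm1, hinj, hy₀, hy₁, hA₀, hA₁, hW⟩ := hD η hη
    have hp := path_est hLC hK hconv hρ hR hKR hm hm1 (y := y₀) (v := fun i => y₁ i - y₀ i)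
      (fun i k h => hinj (by
        simp only [Prod.mk.injEq] at h ⊢
        refine ⟨h.1, ?_⟩
        have := h.2
        rwa [h.1, sub_left_inj] at this))
      (l := 26 * R ^ 2 * ε) (by positivity) (fun i => by
        have h1 : ‖y₁ i - y₀ i‖ ≤ 2 * L := (norm_sub_le _ _).trans (by linarith [hy₀ i, hy₁ i])
        have h2 := mul_le_mul_of_nonneg_left h1 (show 0 ≤ 26 * R ^ 2 * ε by positivity)
        have h3 : R * (ε * (64 * R * L)) = R := by rw [ε1, mul_one]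
        linarith) mj bj j0
    simp only [add_sub_cancel] at hp
    have e1 := dualF_lower hKc hn hK hKR hP₁ hm hA₁
    have e2 := dualF_upper hKc hn hK hKR hP₀ hm hm1 hA₀ hK
    have e3 := dualF_upper hKc hn hK hKR hP₁ hm hm1 hA₁ (tilt_ac ρ (fun x => ε * g x) hK)
    have e4 := dualF_lower_tilt hLC hKc hn hK hR hL hKR hP₀ hm hy₀ hA₀ mj bj j0
    rw [integral_tilt mj bj] at e3
    simp only [add_mul, one_mul] at e3
    rw [integral_add i1 (igu _ c1)] at e3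
    rw [j2] at e4 hp
    have e5 : 13 * R ^ 2 / (26 * R ^ 2 * ε) * (ε ^ 2 * G) = ε * G / 2 := by field_simp; ring
    have e6 : 16 * R * L * (ε ^ 2 * G) = ε * G / 4 := by
      rw [show 16 * R * L * (ε ^ 2 * G) = ε * (64 * R * L) * (ε * G) / 4 by ring, ε1, one_mul]
    have e7 := mul_le_mul_of_nonneg_left hW (show 0 ≤ 4 * (26 * R ^ 2 * ε) by positivity)
    have e8 : ε * G ≤ ε * (416 * R ^ 2 * W + (16 / ε + 416 * R ^ 2) * η) := by
      have : ε * (416 * R ^ 2 * W + (16 / ε + 416 * R ^ 2) * η) =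
          16 * η + 416 * R ^ 2 * ε * (W + η) := by field_simp; ring
      rw [this]
      linarith
    exact le_of_mul_le_mul_left e8 ε0
  refine le_of_forall_pos_le_add fun e he => ?_
  have hc : 0 < 16 / ε + 416 * R ^ 2 := by positivity
  have := key (e / (16 / ε + 416 * R ^ 2)) (by positivity)
  rwa [mul_div_cancel₀ _ hc.ne'] at this

end Vale.Agent.P074
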